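import Vale.Agent.Lib.P121.Haar

open MeasureTheory Set
open scoped ENNReal RealInnerProductSpace

namespace Vale.Agent.Lib.P121

/-! The two contact configurations. -/

/-- Offset of the side points. -/
noncomputable def tt (a : ℝ) : ℝ := rr a / (2 * sg a)

/-- Thick shell point. -/
noncomputable def y0 (a : ℝ) : E3 := rho a • e1
/-- Inner shell point. -/
noncomputable def yp (a : ℝ) : E3 := pp a • e1
/-- Opposite shell point. -/
noncomputable def yq (a : ℝ) : E3 := (-qq a) • e1
/-- First side point. -/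
noncomputable def ya (a : ℝ) : E3 := (-tt a) • e1 + (1 / 2 : ℝ) • e2
/-- Second side point. -/
noncomputable def yb (a : ℝ) : E3 := (-tt a) • e1 + (-(1 / 2) : ℝ) • e2

lemma measurable_rr : Measurable rr := by
  unfold rr
  fun_prop
lemma measurable_sg : Measurable sg := by
  unfold sg
  fun_prop
lemma measurable_rho : Measurable rho := by
  unfold rho
  exact ((measurable_id.pow_const 3).mul measurable_rr).div measurable_sg
lemma measurable_pp : Measurable pp := by
  unfold pp
  fun_prop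
lemma measurable_wW : Measurable wW := by
  unfold wW
  exact measurable_rr.div (measurable_id.pow_const 3)
lemma measurable_dX : Measurable dX := by
  unfold dX
  exact measurable_const.div (measurable_rho.sub measurable_pp)
lemma measurable_dY : Measurable dY := by
  unfold dY
  exact (measurable_wW.sub (measurable_dX.pow_const 2)).sqrt
lemma measurable_qq : Measurable qq := by
  unfold qq
  exact (measurable_const.div measurable_dY).sub measurable_rho
lemma measurable_sS : Measurable sS := by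
  unfold sS
  exact (((measurable_id.pow_const 2).mul (((measurable_id.pow_const 4).add measurable_id).add
    measurable_const))).div (measurable_sg.pow_const 2)
lemma measurable_rR : Measurable rR := by
  unfold rR
  exact measurable_sS.sqrt
lemma measurable_tt : Measurable tt := by
  unfold tt
  exact measurable_rr.div (measurable_const.mul measurable_sg)

lemma measurable_y0 : Measurable y0 := measurable_rho.smul_const e1
lemma measurable_yp : Measurable yp := measurable_pp.smul_const e1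
lemma measurable_yq : Measurable yq := measurable_qq.neg.smul_const e1
lemma measurable_ya : Measurable ya :=
  (measurable_tt.neg.smul_const e1).add measurable_const
lemma measurable_yb : Measurable yb :=
  (measurable_tt.neg.smul_const e1).add measurable_const

lemma inner_e1_e2 : ⟪e1, e2⟫ = 0 := by
  simp [e1, e2, EuclideanSpace.inner_single_left]

lemma norm_sq_frame (α β : ℝ) : ‖α • e1 + β • e2‖ ^ 2 = α ^ 2 + β ^ 2 := by
  rw [norm_add_sq_real, norm_smul, norm_smul, inner_smul_left, inner_smul_right, norm_e1, norm_e2,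
    inner_e1_e2]
  simp only [Real.norm_eq_abs, conj_trivial, mul_pow, sq_abs]
  ring

lemma norm_smul_e1 {α : ℝ} (h : 0 ≤ α) : ‖α • e1‖ = α := by
  rw [norm_smul, norm_e1, mul_one, Real.norm_eq_abs, abs_of_nonneg h]

variable {a : ℝ}

lemma norm_y0 (ha : a ∈ I) : ‖y0 a‖ = rho a := norm_smul_e1 (rho_pos ha).le
lemma norm_yp (ha : a ∈ I) : ‖yp a‖ = pp a := norm_smul_e1 (pp_pos ha).le
lemma norm_yq (ha : a ∈ I) : ‖yq a‖ = qq a := by
  unfold yq
  rw [norm_smul, norm_e1, mul_one, norm_neg, Real.norm_eq_abs, abs_of_pos (qq_pos ha)]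

lemma tt_sq_add (ha : a ∈ I) : tt a ^ 2 + 1 / 4 = sS a := by
  have h := rr_sq ha
  have hs := (sg_pos ha).ne'
  unfold tt sS
  rw [div_pow, mul_pow, h]
  field_simp
  unfold sg
  ring

lemma norm_frame_of_sq {α β r : ℝ} (hr : 0 ≤ r) (h : α ^ 2 + β ^ 2 = r ^ 2) :
    ‖α • e1 + β • e2‖ = r := by
  have := norm_sq_frame α β
  rw [h] at this
  exact (pow_left_inj₀ (norm_nonneg _) hr two_ne_zero).mp this

lemma norm_ya (ha : a ∈ I) : ‖ya a‖ = rR a := by
  apply norm_frame_of_sq (rR_pos ha).le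
  rw [rR_sq ha, ← tt_sq_add ha]
  ring

lemma norm_yb (ha : a ∈ I) : ‖yb a‖ = rR a := by
  apply norm_frame_of_sq (rR_pos ha).le
  rw [rR_sq ha, ← tt_sq_add ha]
  ring

lemma rho_add_tt (ha : a ∈ I) : rho a + tt a = rr a / 2 := by
  have hs := (sg_pos ha).ne'
  unfold rho tt
  field_simp
  unfold sg
  ring

lemma dist_y0_yp (ha : a ∈ I) : ‖y0 a - yp a‖ = rho a - pp a := by
  unfold y0 yp
  rw [← sub_smul]
  apply norm_smul_e1
  have := d1_pos ha
  linarith

lemma dist_y0_yq (ha : a ∈ I) : ‖y0 a - yq a‖ = rho a + qq a := by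
  unfold y0 yq
  rw [← sub_smul, sub_neg_eq_add]
  apply norm_smul_e1
  have := rho_pos ha
  have := qq_pos ha
  linarith

lemma dist_yp_yq (ha : a ∈ I) : ‖yp a - yq a‖ = pp a + qq a := by
  unfold yp yq
  rw [← sub_smul, sub_neg_eq_add]
  apply norm_smul_e1
  have := pp_pos ha
  have := qq_pos ha
  linarith

lemma dist_y0_ya (ha : a ∈ I) : ‖y0 a - ya a‖ = a := by
  have e : y0 a - ya a = (rho a + tt a) • e1 + (-(1 / 2) : ℝ) • e2 := by
    unfold y0 ya
    module
  rw [e]
  apply norm_frame_of_sq (a_pos ha).le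
  rw [rho_add_tt ha, div_pow, rr_sq ha]
  ring

lemma dist_y0_yb (ha : a ∈ I) : ‖y0 a - yb a‖ = a := by
  have e : y0 a - yb a = (rho a + tt a) • e1 + (1 / 2 : ℝ) • e2 := by
    unfold y0 yb
    module
  rw [e]
  apply norm_frame_of_sq (a_pos ha).le
  rw [rho_add_tt ha, div_pow, rr_sq ha]
  ring

lemma dist_ya_yb : ‖ya a - yb a‖ = 1 := by
  have e : ya a - yb a = (1 : ℝ) • e2 := by
    unfold ya yb
    module
  rw [e, norm_smul, norm_e2]
  norm_num

lemma edist_inv_of_norm {x y : E3} {d : ℝ} (hd : 0 < d) (h : ‖x - y‖ = d) :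
    (edist x y)⁻¹ = ENNReal.ofReal (1 / d) := by
  have he : edist x y = ENNReal.ofReal d := by
    rw [edist_dist, dist_eq_norm, h]
  rw [he, one_div, ENNReal.ofReal_inv_of_pos hd]

lemma contact_of_dists {x y z : E3} {d1 d2 d3 : ℝ} (hx : x ∈ SS) (hy : y ∈ SS) (hz : z ∈ SS)
    (h1 : 0 < d1) (h2 : 0 < d2) (h3 : 0 < d3)
    (e1 : ‖x - y‖ = d1) (e2 : ‖x - z‖ = d2) (e3 : ‖y - z‖ = d3)
    (hs : u x + u y + u z = 1 / d1 + 1 / d2 + 1 / d3) : Contact x y z := by
  unfold Contact
  rw [D_eq hx hy hz, hs]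
  unfold coulomb
  rw [edist_inv_of_norm h1 e1, edist_inv_of_norm h2 e2, edist_inv_of_norm h3 e3]
  have p1 : 0 ≤ 1 / d1 := by positivity
  have p2 : 0 ≤ 1 / d2 := by positivity
  have p3 : 0 ≤ 1 / d3 := by positivity
  rw [← ENNReal.ofReal_add p1 p2, ← ENNReal.ofReal_add (by positivity) p3,
    ← ENNReal.ofReal_add (by positivity) (by norm_num)]

lemma y0_mem (ha : a ∈ I) : y0 a ∈ Sh 0 := ⟨a, ha, norm_y0 ha⟩
lemma yp_mem (ha : a ∈ I) : yp a ∈ Sh 1 := ⟨a, ha, norm_yp ha⟩
lemma yq_mem (ha : a ∈ I) : yq a ∈ Sh 2 := ⟨a, ha, norm_yq ha⟩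
lemma ya_mem (ha : a ∈ I) : ya a ∈ Sh 3 := ⟨a, ha, norm_ya ha⟩
lemma yb_mem (ha : a ∈ I) : yb a ∈ Sh 3 := ⟨a, ha, norm_yb ha⟩

lemma contact_line (ha : a ∈ I) : Contact (y0 a) (yp a) (yq a) := by
  refine contact_of_dists (mem_SS (y0_mem ha)) (mem_SS (yp_mem ha)) (mem_SS (yq_mem ha))
    (d1_pos ha) ?_ ?_ (dist_y0_yp ha) (dist_y0_yq ha) (dist_yp_yq ha) ?_
  · have := rho_pos ha
    have := qq_pos ha
    linarith
  · exact d2_pos ha
  · have e1 : u (y0 a) = U1 a := u_of_mem (j := 0) ha (norm_y0 ha)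
    have e2 : u (yp a) = Up a := u_of_mem (j := 1) ha (norm_yp ha)
    have e3 : u (yq a) = Uq a := u_of_mem (j := 2) ha (norm_yq ha)
    rw [e1, e2, e3, potential_diag ha, rho_add_qq]
    have := dY_pos ha
    unfold dX dZ
    field_simp

lemma contact_iso (ha : a ∈ I) : Contact (y0 a) (ya a) (yb a) := by
  refine contact_of_dists (mem_SS (y0_mem ha)) (mem_SS (ya_mem ha)) (mem_SS (yb_mem ha))
    (a_pos ha) (a_pos ha) one_pos (dist_y0_ya ha) (dist_y0_yb ha) dist_ya_yb ?_
  have e1 : u (y0 a) = U1 a := u_of_mem (j := 0) ha (norm_y0 ha)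
  have e2 : u (ya a) = UR a := u_of_mem (j := 3) ha (norm_ya ha)
  have e3 : u (yb a) = UR a := u_of_mem (j := 3) ha (norm_yb ha)
  rw [e1, e2, e3]
  unfold UR
  ring

lemma Contact.act {x y z : E3} (h : Contact x y z) (g : G) :
    Contact (act g x) (act g y) (act g z) := by
  unfold Contact at *
  rw [u_act, u_act, u_act, coulomb_act]
  exact h

lemma Contact.rot1 {x y z : E3} (h : Contact x y z) : Contact y z x := by
  exact h.swap23.swap13

lemma rnd_mem {y : ℝ → E3} {j : Fin 4} (hy : ∀ a ∈ I, y a ∈ Sh j) {w : ℝ × G} (hw : w.1 ∈ I) :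
    rnd y w ∈ Sh j := by
  obtain ⟨b, hb, hn⟩ := hy _ hw
  refine ⟨b, hb, ?_⟩
  unfold rnd
  rw [norm_act, hn]

end Vale.Agent.Lib.P121
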