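import Mathlib

open MeasureTheory
open scoped ENNReal

namespace Vale.Agent.Lib.P121

/-- Euclidean three-space. -/
abbrev E3 : Type := EuclideanSpace ℝ (Fin 3)

/-- The Coulomb cost of three points of `E3`; it equals infinity when two of them coincide,
since the inverse of `0` in `ℝ≥0∞` is infinity. -/
noncomputable def coulomb (x y z : E3) : ℝ≥0∞ :=
  (edist x y)⁻¹ + (edist x z)⁻¹ + (edist y z)⁻¹

/-- `π` is a Borel measure on `E3 × E3 × E3` whose three coordinate marginals all equal `μ`. -/
def IsCoupling (μ : Measure E3) (π : Measure (E3 × E3 × E3)) : Prop :=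
  π.map (fun w => w.1) = μ ∧ π.map (fun w => w.2.1) = μ ∧ π.map (fun w => w.2.2) = μ

/-- The Kantorovich value: the infimum of the expected Coulomb cost over all couplings. -/
noncomputable def kantorovichValue (μ : Measure E3) : ℝ≥0∞ :=
  ⨅ (π : Measure (E3 × E3 × E3)) (_ : IsCoupling μ π), ∫⁻ w, coulomb w.1 w.2.1 w.2.2 ∂π

end Vale.Agent.Lib.P121
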