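import Vale.Agent.Lib.P121.Funcs

open MeasureTheory Set
open scoped ENNReal

namespace Vale.Agent.Lib.P121

/-- Derivative of `wW`. -/
noncomputable def wW' (a : ℝ) : ℝ := (3 - 8 * a ^ 2) / (a ^ 4 * rr a)
/-- Derivative of `dX`. -/
noncomputable def dX' (a : ℝ) : ℝ := -(rho' a - 1 / 10) / (rho a - pp a) ^ 2
/-- Derivative of `dY`. -/
noncomputable def dY' (a : ℝ) : ℝ := (wW' a - 2 * dX a * dX' a) / (2 * dY a)
/-- Derivative of `qq`. -/
noncomputable def qq' (a : ℝ) : ℝ := -dY' a / (dY a) ^ 2 - rho' a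
/-- Derivative of `sS`. -/
noncomputable def sS' (a : ℝ) : ℝ := -(a * (8 * a ^ 3 - 3 * a - 2)) / (sg a) ^ 3
/-- Derivative of `rR`. -/
noncomputable def rR' (a : ℝ) : ℝ := sS' a / (2 * rR a)

section derivs

variable {a : ℝ}

lemma hasDerivAt_one_div {f : ℝ → ℝ} {f' x : ℝ} (h : HasDerivAt f f' x) (hne : f x ≠ 0) :
    HasDerivAt (fun y => 1 / f y) (-f' / (f x) ^ 2) x := by
  have := (hasDerivAt_const x (1 : ℝ)).fun_div h hne
  exact this.congr_deriv (by ring)

lemma hasDerivAt_rr (ha : a ∈ I) : HasDerivAt rr (4 * a / rr a) a := by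
  have h1 : HasDerivAt (fun x : ℝ => 4 * x ^ 2 - 1) (8 * a) a := by
    have := ((hasDerivAt_pow 2 a).const_mul (4 : ℝ)).sub_const 1
    exact this.congr_deriv (by norm_num; ring)
  have h2 : (4 * a ^ 2 - 1) ≠ 0 := by
    have := a2_lo ha
    norm_num at this
    intro h
    linarith
  have h3 := h1.sqrt h2
  refine HasDerivAt.congr_deriv h3 ?_
  have hr := rr_pos ha
  show 8 * a / (2 * rr a) = 4 * a / rr a
  field_simp
  ring

lemma hasDerivAt_sg (a : ℝ) : HasDerivAt sg (6 * a ^ 2) a := by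
  have := ((hasDerivAt_pow 3 a).const_mul (2 : ℝ)).add_const 1
  exact this.congr_deriv (by norm_num; ring)

lemma hasDerivAt_rho (ha : a ∈ I) : HasDerivAt rho (rho' a) a := by
  have hr := rr_pos ha
  have hs := sg_pos ha
  have h1 := (hasDerivAt_pow 3 a).fun_mul (hasDerivAt_rr ha)
  have h2 := h1.fun_div (hasDerivAt_sg a) hs.ne'
  have hsq := rr_sq ha
  refine HasDerivAt.congr_deriv h2 ?_
  unfold rho'
  have hrr : rr a * rr a = 4 * a ^ 2 - 1 := by rw [← hsq]; ring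
  norm_num
  have e : a ^ 2 * (8 * a ^ 5 + 16 * a ^ 2 - 3)
      = ((3 * a ^ 2) * (rr a * rr a) + a ^ 3 * (4 * a)) * sg a
        - a ^ 3 * (rr a * rr a) * (6 * a ^ 2) := by
    rw [hrr]
    unfold sg
    ring
  rw [e]
  field_simp

lemma hasDerivAt_pp (a : ℝ) : HasDerivAt pp (1 / 10) a := by
  have h := ((hasDerivAt_id' a).sub_const (11 / 5 : ℝ)).div_const 10
  have h2 := h.const_add (1 / 8 : ℝ)
  exact h2

lemma hasDerivAt_wW (ha : a ∈ I) : HasDerivAt wW (wW' a) a := by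
  have hr := rr_pos ha
  have h0 : 0 < a := a_pos ha
  have h1 := (hasDerivAt_rr ha).fun_div (hasDerivAt_pow 3 a) (pow_ne_zero 3 h0.ne')
  have hsq := rr_sq ha
  refine HasDerivAt.congr_deriv h1 ?_
  unfold wW'
  have e : (3 - 8 * a ^ 2) = 4 * a ^ 2 - 3 * (rr a) ^ 2 := by rw [hsq]; ring
  rw [e]
  norm_num
  field_simp

lemma hasDerivAt_dX (ha : a ∈ I) : HasDerivAt dX (dX' a) a := by
  have h1 := (hasDerivAt_rho ha).fun_sub (hasDerivAt_pp a)
  exact hasDerivAt_one_div h1 (d1_pos ha).ne'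

lemma hasDerivAt_dY (ha : a ∈ I) : HasDerivAt dY (dY' a) a := by
  have h1 := (hasDerivAt_wW ha).fun_sub ((hasDerivAt_dX ha).fun_pow 2)
  have h2 : wW a - dX a ^ 2 ≠ 0 := by
    have := dY2_lo ha
    norm_num at this
    intro h
    linarith
  have h3 := h1.sqrt h2
  refine HasDerivAt.congr_deriv h3 ?_
  unfold dY'
  show _ / (2 * dY a) = _
  norm_num

lemma hasDerivAt_qq (ha : a ∈ I) : HasDerivAt qq (qq' a) a := by
  have h1 := hasDerivAt_one_div (hasDerivAt_dY ha) (dY_pos ha).ne'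
  exact h1.fun_sub (hasDerivAt_rho ha)

lemma hasDerivAt_sS (ha : a ∈ I) : HasDerivAt sS (sS' a) a := by
  have hs := sg_pos ha
  have hnum : HasDerivAt (fun x : ℝ => x ^ 2 * (x ^ 4 + x + 1))
      (2 * a * (a ^ 4 + a + 1) + a ^ 2 * (4 * a ^ 3 + 1)) a := by
    have h1 := hasDerivAt_pow 2 a
    have h2 := ((hasDerivAt_pow 4 a).fun_add (hasDerivAt_id' a)).add_const 1
    have h3 := h1.fun_mul h2
    exact h3.congr_deriv (by norm_num)
  have h4 := hnum.fun_div ((hasDerivAt_sg a).fun_pow 2) (pow_ne_zero 2 hs.ne')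
  refine HasDerivAt.congr_deriv h4 ?_
  unfold sS'
  norm_num
  field_simp
  unfold sg
  ring

lemma hasDerivAt_rR (ha : a ∈ I) : HasDerivAt rR (rR' a) a :=
  (hasDerivAt_sS ha).sqrt (sS_pos ha).ne'

/-! Bounds on the derivatives. -/

lemma wW'_lo (ha : a ∈ I) : -0.3561 ≤ wW' a := by
  unfold wW'
  have hr := rr_pos ha
  have h0 := a_pos ha
  have h4 : 23.4256 ≤ a ^ 4 := by
    have : a ^ 4 = a ^ 2 * a ^ 2 := by ring
    rw [this]; have := a2_lo ha; nlinarith
  rw [le_div_iff₀ (by positivity)]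
  have h5 : 23.4256 * 4.28485 ≤ a ^ 4 * rr a := by
    apply mul_le_mul h4 (rr_lo ha) (by norm_num) (by positivity)
  have := a2_hi ha
  norm_num at *
  nlinarith
lemma wW'_hi (ha : a ∈ I) : wW' a ≤ -0.3555 := by
  unfold wW'
  have hr := rr_pos ha
  have h0 := a_pos ha
  have h4 : a ^ 4 ≤ 23.4299 := by
    have : a ^ 4 = a ^ 2 * a ^ 2 := by ring
    rw [this]; have := a2_hi ha; have := a2_lo ha; nlinarith
  rw [div_le_iff₀ (by positivity)]
  have h5 : a ^ 4 * rr a ≤ 23.4299 * 4.28507 := by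
    apply mul_le_mul h4 (rr_hi ha) hr.le (by norm_num)
  have := a2_lo ha
  norm_num at *
  nlinarith

lemma dX'_eq (ha : a ∈ I) : dX' a = -(rho' a - 1 / 10) * dX a ^ 2 := by
  unfold dX' dX
  have := d1_pos ha
  field_simp

lemma dX'_lo (ha : a ∈ I) : -0.28 ≤ dX' a := by
  rw [dX'_eq ha]
  have h1 := rho'_hi ha
  have h1' := rho'_lo ha
  have h2 := dX_hi ha
  have h3 := dX_lo ha
  have h4 : dX a ^ 2 ≤ 0.2710 := by nlinarith
  have h5 : 0 ≤ dX a ^ 2 := by positivity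
  nlinarith
lemma dX'_hi (ha : a ∈ I) : dX' a ≤ -0.27 := by
  rw [dX'_eq ha]
  have h1 := rho'_lo ha
  have h3 := dX_lo ha
  have h4 : 0.2708 ≤ dX a ^ 2 := by nlinarith
  nlinarith

lemma dY'_lo (ha : a ∈ I) : -0.12 ≤ dY' a := by
  unfold dY'
  have hY := dY_pos ha
  rw [le_div_iff₀ (by positivity)]
  have h1 := wW'_lo ha
  have h2 := dX_hi ha
  have h3 := dX_lo ha
  have h4 := dX'_lo ha
  have h5 := dX'_hi ha
  have h6 := dY_lo ha
  have h7 : dX a * dX' a ≤ -0.1405 := by nlinarith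
  nlinarith
lemma dY'_neg_hi (ha : a ∈ I) : dY' a ≤ 0 := by
  unfold dY'
  have hY := dY_pos ha
  apply div_nonpos_of_nonpos_of_nonneg _ (by positivity)
  have h1 := wW'_hi ha
  have h2 := dX_hi ha
  have h3 := dX_lo ha
  have h4 := dX'_lo ha
  have h5 := dX'_hi ha
  nlinarith

lemma qq'_hi (ha : a ∈ I) : qq' a ≤ -0.1 := by
  unfold qq'
  have hY := dY_pos ha
  have h1 := dY'_lo ha
  have h2 := dY_lo ha
  have h3 : 0.1313 ≤ dY a ^ 2 := by nlinarith
  have h4 : -dY' a / dY a ^ 2 ≤ 0.92 := by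
    rw [div_le_iff₀ (by positivity)]
    nlinarith
  have := rho'_lo ha
  linarith

lemma qq'_neg (ha : a ∈ I) : qq' a < 0 := by have := qq'_hi ha; linarith

lemma sS'_neg (ha : a ∈ I) : sS' a < 0 := by
  unfold sS'
  have hs := sg_pos ha
  have h0 := a_pos ha
  have h3 := a3_lo ha
  have h1 := a_hi ha
  apply div_neg_of_neg_of_pos _ (by positivity)
  have : 0 < a * (8 * a ^ 3 - 3 * a - 2) := by
    apply mul_pos h0
    norm_num at *
    nlinarith
  linarith

lemma rR'_neg (ha : a ∈ I) : rR' a < 0 :=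
  div_neg_of_neg_of_pos (sS'_neg ha) (by have := rR_pos ha; positivity)

/-- Force matching for the collinear branch. -/
lemma dX_sq_add_dY_sq (ha : a ∈ I) : dX a ^ 2 + dY a ^ 2 = wW a := by
  rw [dY_sq ha]; ring

/-- The identity linking the two branches. -/
lemma envelope_identity (ha : a ∈ I) :
    (-(2 / a ^ 2) + rho' a * wW a) / 2 = -((2 + 1 / a ^ 3) / 2) * sS' a := by
  have hr := rr_pos ha
  have hs := sg_pos ha
  have h0 := a_pos ha
  unfold rho' wW sS'
  have hne : sg a ≠ 0 := hs.ne'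
  have hr' : rr a ≠ 0 := hr.ne'
  have h0' : a ≠ 0 := h0.ne'
  field_simp
  unfold sg
  ring

end derivs

end Vale.Agent.Lib.P121
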