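import Vale.Agent.Lib.P121.Shells

open MeasureTheory Set
open scoped ENNReal

namespace Vale.Agent.Lib.P121

lemma coulomb_comm12 (x y z : E3) : coulomb x y z = coulomb y x z := by
  unfold coulomb
  rw [edist_comm x y, add_assoc, add_assoc, add_comm (edist x z)⁻¹ _]

lemma coulomb_comm23 (x y z : E3) : coulomb x y z = coulomb x z y := by
  unfold coulomb
  rw [edist_comm y z, add_comm (edist x y)⁻¹ _]

/-- Weak dual inequality at a triple, with a real lower bound of the cost. -/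
def Weak (x y z : E3) : Prop :=
  ∃ T : ℝ, ENNReal.ofReal T ≤ coulomb x y z ∧ u x + u y + u z ≤ T

/-- Dual inequality with a positive gap. -/
def Gap (x y z : E3) : Prop :=
  ∃ T : ℝ, ENNReal.ofReal T ≤ coulomb x y z ∧ u x + u y + u z + 1 / 100 ≤ T

lemma Gap.weak {x y z : E3} (h : Gap x y z) : Weak x y z := by
  obtain ⟨T, h1, h2⟩ := h
  exact ⟨T, h1, by linarith⟩

lemma Weak.swap12 {x y z : E3} (h : Weak x y z) : Weak y x z := by
  obtain ⟨T, h1, h2⟩ := h
  exact ⟨T, by rwa [← coulomb_comm12], by linarith⟩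

lemma Weak.swap23 {x y z : E3} (h : Weak x y z) : Weak x z y := by
  obtain ⟨T, h1, h2⟩ := h
  exact ⟨T, by rwa [← coulomb_comm23], by linarith⟩

lemma Gap.swap12 {x y z : E3} (h : Gap x y z) : Gap y x z := by
  obtain ⟨T, h1, h2⟩ := h
  exact ⟨T, by rwa [← coulomb_comm12], by linarith⟩

lemma Gap.swap23 {x y z : E3} (h : Gap x y z) : Gap x z y := by
  obtain ⟨T, h1, h2⟩ := h
  exact ⟨T, by rwa [← coulomb_comm23], by linarith⟩

lemma rankOne_anti {d1 d2 d3 A B C A' B' C' : ℝ} (h1 : 0 < d1) (h2 : 0 < d2) (h3 : 0 < d3)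
    (hA : A' ≤ A) (hB : B' ≤ B) (hC : C' ≤ C) :
    rankOne d1 d2 d3 A B C ≤ rankOne d1 d2 d3 A' B' C' := by
  unfold rankOne
  have c1 : 0 ≤ 1 / d1 ^ 3 + 1 / d2 ^ 3 + 1 / d1 ^ 3 * (1 / d2 ^ 3) / (1 / d3 ^ 3) := by positivity
  have c2 : 0 ≤ 1 / d1 ^ 3 + 1 / d3 ^ 3 + 1 / d1 ^ 3 * (1 / d3 ^ 3) / (1 / d2 ^ 3) := by positivity
  have c3 : 0 ≤ 1 / d2 ^ 3 + 1 / d3 ^ 3 + 1 / d2 ^ 3 * (1 / d3 ^ 3) / (1 / d1 ^ 3) := by positivity
  have m1 := mul_le_mul_of_nonneg_left hA c1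
  have m2 := mul_le_mul_of_nonneg_left hB c2
  have m3 := mul_le_mul_of_nonneg_left hC c3
  linarith

/-- The general cross estimate between three shells. -/
lemma cross {j1 j2 j3 : Fin 4} {x y z : E3} (d1 d2 d3 : ℝ) (h1 : 0 < d1) (h2 : 0 < d2) (h3 : 0 < d3)
    (num : potHi j1 + potHi j2 + potHi j3 + 1 / 100
      ≤ rankOne d1 d2 d3 (radHi j1 ^ 2) (radHi j2 ^ 2) (radHi j3 ^ 2))
    (hx : x ∈ Sh j1) (hy : y ∈ Sh j2) (hz : z ∈ Sh j3) : Gap x y z := by
  refine ⟨tangentSum d1 d2 d3 x y z, ofReal_tangentSum_le h1 h2 h3 x y z, ?_⟩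
  have hux := u_hi hx
  have huy := u_hi hy
  have huz := u_hi hz
  have s1 : ‖x‖ ^ 2 ≤ radHi j1 ^ 2 := pow_le_pow_left₀ (norm_nonneg _) (norm_hi hx) 2
  have s2 : ‖y‖ ^ 2 ≤ radHi j2 ^ 2 := pow_le_pow_left₀ (norm_nonneg _) (norm_hi hy) 2
  have s3 : ‖z‖ ^ 2 ≤ radHi j3 ^ 2 := pow_le_pow_left₀ (norm_nonneg _) (norm_hi hz) 2
  have t1 := rankOne_anti h1 h2 h3 s1 s2 s3
  have t2 := rankOne_le_tangentSum h1 h2 h3 x y z
  linarith

section certificates

variable {x y z : E3}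

lemma gap000 (hx : x ∈ Sh 0) (hy : y ∈ Sh 0) (hz : z ∈ Sh 0) : Gap x y z :=
  cross (71 / 20) (71 / 20) (71 / 20) (by norm_num) (by norm_num) (by norm_num)
    (by simp [rankOne, potHi, radHi]; norm_num) hx hy hz

lemma gap001 (hx : x ∈ Sh 0) (hy : y ∈ Sh 0) (hz : z ∈ Sh 1) : Gap x y z :=
  cross 4 (52 / 25) (52 / 25) (by norm_num) (by norm_num) (by norm_num)
    (by simp [rankOne, potHi, radHi]; norm_num) hx hy hz

lemma gap002 (hx : x ∈ Sh 0) (hy : y ∈ Sh 0) (hz : z ∈ Sh 2) : Gap x y z :=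
  cross (177 / 50) (62 / 25) (62 / 25) (by norm_num) (by norm_num) (by norm_num)
    (by simp [rankOne, potHi, radHi]; norm_num) hx hy hz

lemma gap003 (hx : x ∈ Sh 0) (hy : y ∈ Sh 0) (hz : z ∈ Sh 3) : Gap x y z :=
  cross (181 / 50) (233 / 100) (233 / 100) (by norm_num) (by norm_num) (by norm_num)
    (by simp [rankOne, potHi, radHi]; norm_num) hx hy hz

lemma gap011 (hx : x ∈ Sh 0) (hy : y ∈ Sh 1) (hz : z ∈ Sh 1) : Gap x y z :=
  cross (41 / 20) (41 / 20) (1 / 4) (by norm_num) (by norm_num) (by norm_num)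
    (by simp [rankOne, potHi, radHi]; norm_num) hx hy hz

lemma gap013 (hx : x ∈ Sh 0) (hy : y ∈ Sh 1) (hz : z ∈ Sh 3) : Gap x y z :=
  cross (37 / 20) (27 / 10) (16 / 25) (by norm_num) (by norm_num) (by norm_num)
    (by simp [rankOne, potHi, radHi]; norm_num) hx hy hz

lemma gap022 (hx : x ∈ Sh 0) (hy : y ∈ Sh 2) (hz : z ∈ Sh 2) : Gap x y z :=
  cross (47 / 20) (47 / 20) (34 / 25) (by norm_num) (by norm_num) (by norm_num)
    (by simp [rankOne, potHi, radHi]; norm_num) hx hy hz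

lemma gap023 (hx : x ∈ Sh 0) (hy : y ∈ Sh 2) (hz : z ∈ Sh 3) : Gap x y z :=
  cross (239 / 100) (217 / 100) (119 / 100) (by norm_num) (by norm_num) (by norm_num)
    (by simp [rankOne, potHi, radHi]; norm_num) hx hy hz

lemma gap111 (hx : x ∈ Sh 1) (hy : y ∈ Sh 1) (hz : z ∈ Sh 1) : Gap x y z :=
  cross (11 / 50) (11 / 50) (11 / 50) (by norm_num) (by norm_num) (by norm_num)
    (by simp [rankOne, potHi, radHi]; norm_num) hx hy hz

lemma gap112 (hx : x ∈ Sh 1) (hy : y ∈ Sh 1) (hz : z ∈ Sh 2) : Gap x y z :=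
  cross (1 / 4) (37 / 50) (37 / 50) (by norm_num) (by norm_num) (by norm_num)
    (by simp [rankOne, potHi, radHi]; norm_num) hx hy hz

lemma gap113 (hx : x ∈ Sh 1) (hy : y ∈ Sh 1) (hz : z ∈ Sh 3) : Gap x y z :=
  cross (1 / 4) (11 / 20) (11 / 20) (by norm_num) (by norm_num) (by norm_num)
    (by simp [rankOne, potHi, radHi]; norm_num) hx hy hz

lemma gap122 (hx : x ∈ Sh 1) (hy : y ∈ Sh 2) (hz : z ∈ Sh 2) : Gap x y z :=
  cross (77 / 100) (77 / 100) (129 / 100) (by norm_num) (by norm_num) (by norm_num)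
    (by simp [rankOne, potHi, radHi]; norm_num) hx hy hz

lemma gap123 (hx : x ∈ Sh 1) (hy : y ∈ Sh 2) (hz : z ∈ Sh 3) : Gap x y z :=
  cross (37 / 50) (3 / 5) (11 / 10) (by norm_num) (by norm_num) (by norm_num)
    (by simp [rankOne, potHi, radHi]; norm_num) hx hy hz

lemma gap133 (hx : x ∈ Sh 1) (hy : y ∈ Sh 3) (hz : z ∈ Sh 3) : Gap x y z :=
  cross (29 / 50) (29 / 50) (9 / 10) (by norm_num) (by norm_num) (by norm_num)
    (by simp [rankOne, potHi, radHi]; norm_num) hx hy hz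

lemma gap222 (hx : x ∈ Sh 2) (hy : y ∈ Sh 2) (hz : z ∈ Sh 2) : Gap x y z :=
  cross (123 / 100) (123 / 100) (123 / 100) (by norm_num) (by norm_num) (by norm_num)
    (by simp [rankOne, potHi, radHi]; norm_num) hx hy hz

lemma gap223 (hx : x ∈ Sh 2) (hy : y ∈ Sh 2) (hz : z ∈ Sh 3) : Gap x y z :=
  cross (121 / 100) (107 / 100) (107 / 100) (by norm_num) (by norm_num) (by norm_num)
    (by simp [rankOne, potHi, radHi]; norm_num) hx hy hz

lemma gap233 (hx : x ∈ Sh 2) (hy : y ∈ Sh 3) (hz : z ∈ Sh 3) : Gap x y z :=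
  cross (21 / 20) (21 / 20) (91 / 100) (by norm_num) (by norm_num) (by norm_num)
    (by simp [rankOne, potHi, radHi]; norm_num) hx hy hz

lemma gap333 (hx : x ∈ Sh 3) (hy : y ∈ Sh 3) (hz : z ∈ Sh 3) : Gap x y z :=
  cross (22 / 25) (22 / 25) (22 / 25) (by norm_num) (by norm_num) (by norm_num)
    (by simp [rankOne, potHi, radHi]; norm_num) hx hy hz

end certificates

/-- The collinear special estimate. -/
lemma special_collinear {x y z : E3} {a a2 a3 : ℝ} (ha : a ∈ I) (h2 : a2 ∈ I) (h3 : a3 ∈ I)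
    (hx : ‖x‖ = rho a) (hy : ‖y‖ = pp a2) (hz : ‖z‖ = qq a3) :
    ∃ T : ℝ, ENNReal.ofReal T ≤ coulomb x y z ∧
      U1 a + Up a2 + Uq a3 + 5 / 1188 * ‖(1 / rho a) • x - (1 / pp a2) • y‖ ^ 2 ≤ T ∧
      (a ≠ a2 → U1 a + Up a2 + Uq a3 < T) := by
  have r1lo := rho_lo ha
  have r1hi := rho_hi ha
  have r2lo := pp_lo h2
  have r2hi := pp_hi h2
  have r3lo := qq_lo h3
  have r3hi := qq_hi h3
  norm_num at r1lo r1hi r2lo r2hi r3lo r3hi
  set r1 := rho a with hr1
  set r2 := pp a2 with hr2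
  set r3 := qq a3 with hr3
  have p1 : 0 < r1 := by linarith
  have p2 : 0 < r2 := by linarith
  have p3 : 0 < r3 := by linarith
  have h12 : r2 < r1 := by linarith
  have hD1 : 0 < r1 - r2 := sub_pos.mpr h12
  have hD2 : 0 < r1 + r3 := by positivity
  have hD3 : 0 < r2 + r3 := by positivity
  have hB : r1 * r2 / (r1 - r2) ^ 3 ≤ 1 / 27 := by
    rw [div_le_iff₀ (by positivity)]
    have e1 : r1 * r2 ≤ (20465 / 10000) * (12501 / 100000) :=
      mul_le_mul (by linarith) (by linarith) p2.le (by norm_num)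
    have e2 : ((192129 : ℝ) / 100000) ^ 3 ≤ (r1 - r2) ^ 3 :=
      pow_le_pow_left₀ (by norm_num) (by linarith) 3
    norm_num at e1 e2 ⊢
    linarith
  have hA1 : 1 / 15 ≤ r1 * r3 / (r1 + r3) ^ 3 := by
    rw [le_div_iff₀ (by positivity)]
    have e1 : (20463 / 10000) * (7083 / 10000) ≤ r1 * r3 :=
      mul_le_mul (by linarith) (by linarith) (by norm_num) p1.le
    have e2 : (r1 + r3) ^ 3 ≤ ((27596 : ℝ) / 10000) ^ 3 :=
      pow_le_pow_left₀ hD2.le (by linarith) 3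
    norm_num at e1 e2 ⊢
    linarith
  have hA2 : 1 / 7 ≤ r2 * r3 / (r2 + r3) ^ 3 := by
    rw [le_div_iff₀ (by positivity)]
    have e1 : (125 / 1000) * (7083 / 10000) ≤ r2 * r3 :=
      mul_le_mul (by linarith) (by linarith) (by norm_num) p2.le
    have e2 : (r2 + r3) ^ 3 ≤ ((83811 : ℝ) / 100000) ^ 3 :=
      pow_le_pow_left₀ hD3.le (by linarith) 3
    norm_num at e1 e2 ⊢
    linarith
  have key := tangentSum_collinear p1 p2 p3 h12 hx hy hz hB hA1 hA2
  have rad := collinear_radial ha h2 h3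
  refine ⟨tangentSum (r1 - r2) (r1 + r3) (r2 + r3) x y z,
    ofReal_tangentSum_le hD1 hD2 hD3 x y z, ?_, ?_⟩
  · linarith [rad.1]
  · intro hne
    have := rad.2 hne
    have nn : 0 ≤ 5 / 1188 * ‖(1 / r1) • x - (1 / r2) • y‖ ^ 2 := by positivity
    linarith

lemma special_iso {x y z : E3} {a a2 a3 : ℝ} (ha : a ∈ I) (h2 : a2 ∈ I) (h3 : a3 ∈ I)
    (hx : ‖x‖ = rho a) (hy : ‖y‖ = rR a2) (hz : ‖z‖ = rR a3) : Weak x y z := by
  have h0 := a_pos ha
  refine ⟨tangentSum a a 1 x y z, ofReal_tangentSum_le h0 h0 one_pos x y z, ?_⟩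
  have t := rankOne_le_tangentSum h0 h0 one_pos x y z
  have i := iso_ineq ha h2 h3
  rw [hx, hy, hz, rR_sq h2, rR_sq h3] at t
  have e1 : u x = U1 a := u_of_mem (j := 0) ha hx
  have e2 : u y = UR a2 := u_of_mem (j := 3) h2 hy
  have e3 : u z = UR a3 := u_of_mem (j := 3) h3 hz
  rw [e1, e2, e3]
  linarith

lemma weak_sorted {j1 j2 j3 : Fin 4} (h12 : j1 ≤ j2) (h23 : j2 ≤ j3) {x y z : E3}
    (hx : x ∈ Sh j1) (hy : y ∈ Sh j2) (hz : z ∈ Sh j3) : Weak x y z := by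
  have s012 : ∀ {x y z : E3}, x ∈ Sh 0 → y ∈ Sh 1 → z ∈ Sh 2 → Weak x y z := by
    rintro x y z ⟨a, ha, hx⟩ ⟨a2, h2, hy⟩ ⟨a3, h3, hz⟩
    obtain ⟨T, h1, h4, -⟩ := special_collinear (x := x) (y := y) (z := z) ha h2 h3 hx hy hz
    refine ⟨T, h1, ?_⟩
    have e1 : u x = U1 a := u_of_mem (j := 0) ha hx
    have e2 : u y = Up a2 := u_of_mem (j := 1) h2 hy
    have e3 : u z = Uq a3 := u_of_mem (j := 2) h3 hz
    rw [e1, e2, e3]
    have nn : 0 ≤ 5 / 1188 * ‖(1 / rho a) • x - (1 / pp a2) • y‖ ^ 2 := by positivity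
    linarith
  have s033 : ∀ {x y z : E3}, x ∈ Sh 0 → y ∈ Sh 3 → z ∈ Sh 3 → Weak x y z := by
    rintro x y z ⟨a, ha, hx⟩ ⟨a2, h2, hy⟩ ⟨a3, h3, hz⟩
    exact special_iso ha h2 h3 hx hy hz
  fin_cases j1 <;> fin_cases j2 <;> fin_cases j3 <;> first
    | exact absurd h12 (by decide)
    | exact absurd h23 (by decide)
    | exact s012 hx hy hz
    | exact s033 hx hy hz
    | exact (gap000 hx hy hz).weak
    | exact (gap001 hx hy hz).weak
    | exact (gap002 hx hy hz).weak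
    | exact (gap003 hx hy hz).weak
    | exact (gap011 hx hy hz).weak
    | exact (gap013 hx hy hz).weak
    | exact (gap022 hx hy hz).weak
    | exact (gap023 hx hy hz).weak
    | exact (gap111 hx hy hz).weak
    | exact (gap112 hx hy hz).weak
    | exact (gap113 hx hy hz).weak
    | exact (gap122 hx hy hz).weak
    | exact (gap123 hx hy hz).weak
    | exact (gap133 hx hy hz).weak
    | exact (gap222 hx hy hz).weak
    | exact (gap223 hx hy hz).weak
    | exact (gap233 hx hy hz).weak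
    | exact (gap333 hx hy hz).weak

lemma weak_all {x y z : E3} (hx : x ∈ SS) (hy : y ∈ SS) (hz : z ∈ SS) : Weak x y z := by
  obtain ⟨j1, hx⟩ := hx
  obtain ⟨j2, hy⟩ := hy
  obtain ⟨j3, hz⟩ := hz
  rcases le_total j1 j2 with h12 | h12 <;> rcases le_total j2 j3 with h23 | h23 <;>
    rcases le_total j1 j3 with h13 | h13
  · exact weak_sorted h12 h23 hx hy hz
  · exact weak_sorted h12 h23 hx hy hz
  · exact (weak_sorted h13 h23 hx hz hy).swap23
  · exact ((weak_sorted h13 h12 hz hx hy).swap12).swap23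
  · exact (weak_sorted h12 h13 hy hx hz).swap12
  · exact ((weak_sorted h23 h13 hy hz hx).swap23).swap12
  · exact ((weak_sorted h23 h12 hz hy hx).swap12.swap23).swap12
  · exact ((weak_sorted h23 h12 hz hy hx).swap12.swap23).swap12

/-- Equality in the dual inequality at a triple. -/
def Contact (x y z : E3) : Prop :=
  ENNReal.ofReal (u x + 1) + ENNReal.ofReal (u y + 1) + ENNReal.ofReal (u z + 1)
    = coulomb x y z + ENNReal.ofReal 3

lemma Contact.swap13 {x y z : E3} (h : Contact x y z) : Contact z y x := by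
  unfold Contact at *
  rw [coulomb_comm12 z y x, coulomb_comm23 y z x, coulomb_comm12 y x z, ← h]
  ring

lemma Contact.swap23 {x y z : E3} (h : Contact x y z) : Contact x z y := by
  unfold Contact at *
  rw [← coulomb_comm23, ← h]
  ring

lemma D_eq {x y z : E3} (hx : x ∈ SS) (hy : y ∈ SS) (hz : z ∈ SS) :
    ENNReal.ofReal (u x + 1) + ENNReal.ofReal (u y + 1) + ENNReal.ofReal (u z + 1)
      = ENNReal.ofReal (u x + u y + u z + 3) := by
  have h1 : 0 ≤ u x + 1 := by linarith [u_lo hx]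
  have h2 : 0 ≤ u y + 1 := by linarith [u_lo hy]
  have h3 : 0 ≤ u z + 1 := by linarith [u_lo hz]
  rw [← ENNReal.ofReal_add h1 h2, ← ENNReal.ofReal_add (by positivity) h3]
  congr 1
  ring

/-- The dual inequality on triples of shell points. -/
lemma dual_le {x y z : E3} (hx : x ∈ SS) (hy : y ∈ SS) (hz : z ∈ SS) :
    ENNReal.ofReal (u x + 1) + ENNReal.ofReal (u y + 1) + ENNReal.ofReal (u z + 1)
      ≤ coulomb x y z + ENNReal.ofReal 3 := by
  obtain ⟨T, h1, h2⟩ := weak_all hx hy hz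
  rw [D_eq hx hy hz]
  calc ENNReal.ofReal (u x + u y + u z + 3) ≤ ENNReal.ofReal (T + 3) :=
        ENNReal.ofReal_le_ofReal (by linarith)
    _ ≤ ENNReal.ofReal T + ENNReal.ofReal 3 := ENNReal.ofReal_add_le
    _ ≤ coulomb x y z + ENNReal.ofReal 3 := by gcongr

lemma le_of_contact {x y z : E3} (hx : x ∈ SS) (hy : y ∈ SS) (hz : z ∈ SS) (hc : Contact x y z)
    {T : ℝ} (hT : ENNReal.ofReal T ≤ coulomb x y z) : T ≤ u x + u y + u z := by
  unfold Contact at hc
  rw [D_eq hx hy hz] at hc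
  by_contra hlt
  rw [not_le] at hlt
  have h0 : 0 ≤ u x + u y + u z + 3 := by
    linarith [u_lo hx, u_lo hy, u_lo hz]
  have h1 : ENNReal.ofReal (u x + u y + u z + 3) < ENNReal.ofReal (T + 3) :=
    (ENNReal.ofReal_lt_ofReal_iff (by linarith)).mpr (by linarith)
  have h2 : ENNReal.ofReal (T + 3) ≤ coulomb x y z + ENNReal.ofReal 3 :=
    calc ENNReal.ofReal (T + 3) ≤ ENNReal.ofReal T + ENNReal.ofReal 3 := ENNReal.ofReal_add_le
      _ ≤ coulomb x y z + ENNReal.ofReal 3 := by gcongr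
  rw [hc] at h1
  exact absurd h2 (not_le.mpr h1)

lemma Gap.not_contact {x y z : E3} (h : Gap x y z) (hx : x ∈ SS) (hy : y ∈ SS) (hz : z ∈ SS) :
    ¬ Contact x y z := by
  intro hc
  obtain ⟨T, h1, h2⟩ := h
  have := le_of_contact hx hy hz hc h1
  linarith

lemma mem_SS {j : Fin 4} {x : E3} (h : x ∈ Sh j) : x ∈ SS := ⟨j, h⟩

/-- The rigid contact structure for the ordered type thick, inner, opposite. -/
lemma contact_012 {x y z : E3} (hx : x ∈ Sh 0) (hy : y ∈ Sh 1) (hz : z ∈ Sh 2)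
    (hc : Contact x y z) : x = ψ y := by
  obtain ⟨a, ha, hxa⟩ := id hx
  obtain ⟨a2, h2, hya⟩ := id hy
  obtain ⟨a3, h3, hza⟩ := id hz
  have hxa' : ‖x‖ = rho a := hxa
  have hya' : ‖y‖ = pp a2 := hya
  have hza' : ‖z‖ = qq a3 := hza
  obtain ⟨T, h1, h4, h5⟩ := special_collinear (x := x) (y := y) (z := z) ha h2 h3 hxa' hya' hza'
  have hle := le_of_contact (mem_SS hx) (mem_SS hy) (mem_SS hz) hc h1
  have e1 : u x = U1 a := u_of_mem (j := 0) ha hxa
  have e2 : u y = Up a2 := u_of_mem (j := 1) h2 hya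
  have e3 : u z = Uq a3 := u_of_mem (j := 2) h3 hza
  rw [e1, e2, e3] at hle
  have haa : a = a2 := by
    by_contra hne
    have := h5 hne
    linarith
  subst haa
  have hnorm : ‖(1 / rho a) • x - (1 / pp a) • y‖ ^ 2 = 0 := by
    have nn : 0 ≤ ‖(1 / rho a) • x - (1 / pp a) • y‖ ^ 2 := by positivity
    nlinarith
  have hdiff : (1 / rho a) • x - (1 / pp a) • y = 0 := by
    have := pow_eq_zero_iff (two_ne_zero) |>.mp hnorm
    exact norm_eq_zero.mp this
  have hrho := rho_pos ha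
  have hpp := pp_pos ha
  have hxy : (1 / rho a) • x = (1 / pp a) • y := sub_eq_zero.mp hdiff
  unfold ψ
  rw [hya', κ_pp ha]
  have : x = rho a • ((1 / rho a) • x) := by
    rw [smul_smul]
    field_simp
    simp
  rw [this, hxy, smul_smul]
  congr 1
  field_simp

/-- Contact structure at a point of the inner shell. -/
lemma contact_p {x y z : E3} (hx : x ∈ SS) (hy : y ∈ Sh 1) (hz : z ∈ SS)
    (hc : Contact x y z) :
    (x ∈ Sh 0 ∧ z ∈ Sh 2 ∧ x = ψ y) ∨ (x ∈ Sh 2 ∧ z ∈ Sh 0 ∧ z = ψ y) := by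
  have hx0 := hx
  have hz0 := hz
  obtain ⟨j1, hx⟩ := hx
  obtain ⟨j3, hz⟩ := hz
  have hy0 : y ∈ SS := mem_SS hy
  have no : ∀ {P : Prop}, Gap x y z → P := fun h => absurd hc (h.not_contact hx0 hy0 hz0)
  fin_cases j1 <;> fin_cases j3
  · exact no (gap001 hx hz hy).swap23
  · exact no (gap011 hx hy hz)
  · exact Or.inl ⟨hx, hz, contact_012 hx hy hz hc⟩
  · exact no (gap013 hx hy hz)
  · exact no (((gap011 hz hx hy).swap12).swap23)
  · exact no (gap111 hx hy hz)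
  · exact no (gap112 hx hy hz)
  · exact no (gap113 hx hy hz)
  · exact Or.inr ⟨hx, hz, contact_012 hz hy hx hc.swap13⟩
  · exact no (((gap112 hy hz hx).swap23).swap12)
  · exact no ((gap122 hy hx hz).swap12)
  · exact no ((gap123 hy hx hz).swap12)
  · exact no ((((gap013 hz hy hx).swap12).swap23).swap12)
  · exact no (((gap113 hy hz hx).swap23).swap12)
  · exact no (((gap123 hy hz hx).swap23).swap12)
  · exact no ((gap133 hy hx hz).swap12)

end Vale.Agent.Lib.P121
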