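import Vale.Agent.Lib.P121.Value

open MeasureTheory Set
open scoped ENNReal

namespace Vale.Agent.Lib.P121

/-- The part of the thick shell which the map sends into the inner shell is null. -/
lemma monge_thick {T T' : E3 → E3} (hT : Measurable T) (hmap : muS.map T = muS)
    (hae : ∀ᵐ x ∂muS, x ∈ SS ∧ T x ∈ SS ∧ T' x ∈ SS ∧ Contact x (T x) (T' x)) :
    muS (T ⁻¹' (Sh 1) ∩ Sh 0) = 0 := by
  set W := T ⁻¹' (Sh 1) ∩ Sh 0 with hW
  have hWm : MeasurableSet W := (hT (measurableSet_Sh 1)).inter (measurableSet_Sh 0)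
  set C := ψ ⁻¹' W ∩ Sh 1 with hC
  have hCm : MeasurableSet C := (measurable_ψ hWm).inter (measurableSet_Sh 1)
  have h2 : muS W = 2 * muS C := muS_thick hWm inter_subset_right
  have h3 : muS W ≤ muS C := by
    calc muS W ≤ muS (T ⁻¹' C) := by
          apply measure_mono_ae
          filter_upwards [hae] with x hx hxW
          obtain ⟨hx1, hx2, hx3, hxc⟩ := hx
          have hxW' : x ∈ W := hxW
          have hy : T x ∈ Sh 1 := hxW'.1
          have h0 : x ∈ Sh 0 := hxW'.2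
          rcases contact_p hx1 hy hx3 hxc with ⟨-, -, hs⟩ | ⟨h5, -, -⟩
          · show T x ∈ C
            refine ⟨?_, hy⟩
            show ψ (T x) ∈ W
            rw [← hs]
            exact hxW'
          · have := Sh_disjoint h0 h5
            exact absurd this (by decide)
      _ = (muS.map T) C := (Measure.map_apply hT hCm).symm
      _ = muS C := by rw [hmap]
  have hfin : muS C ≠ ∞ := measure_ne_top _ _
  have hzero : muS C = 0 := by
    rw [h2] at h3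
    by_contra hne
    have hlt : muS C < 2 * muS C := by
      calc muS C = 1 * muS C := (one_mul _).symm
        _ < 2 * muS C := (ENNReal.mul_lt_mul_iff_left hne hfin).mpr (by norm_num)
    exact absurd h3 (not_le.mpr hlt)
  rw [h2, hzero, mul_zero]

/-- No optimal Monge plan for the counterexample. -/
theorem no_monge {T₂ T₃ : E3 → E3} (h₂ : Measurable T₂) (h₃ : Measurable T₃)
    (m₂ : muS.map T₂ = muS) (m₃ : muS.map T₃ = muS)
    (hc : ∫⁻ x, coulomb x (T₂ x) (T₃ x) ∂muS = kantorovichValue muS) : False := by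
  have a2 : ∀ᵐ x ∂muS, T₂ x ∈ SS :=
    ae_of_ae_map h₂.aemeasurable (by rw [m₂]; exact muS_ae_SS)
  have a3 : ∀ᵐ x ∂muS, T₃ x ∈ SS :=
    ae_of_ae_map h₃.aemeasurable (by rw [m₃]; exact muS_ae_SS)
  have f2 : Measurable (fun x => fU (T₂ x)) := measurable_fU.comp h₂
  have f3 : Measurable (fun x => fU (T₃ x)) := measurable_fU.comp h₃
  have f12 : Measurable (fun x => fU x + fU (T₂ x)) := measurable_fU.add f2
  have hF : ∫⁻ x, (fU x + fU (T₂ x) + fU (T₃ x)) ∂muS = Lval := by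
    rw [lintegral_add_left f12, lintegral_add_left measurable_fU]
    have e2 : ∫⁻ x, fU (T₂ x) ∂muS = ∫⁻ x, fU x ∂muS := by
      conv_rhs => rw [← m₂]
      exact (lintegral_map measurable_fU h₂).symm
    have e3 : ∫⁻ x, fU (T₃ x) ∂muS = ∫⁻ x, fU x ∂muS := by
      conv_rhs => rw [← m₃]
      exact (lintegral_map measurable_fU h₃).symm
    rw [e2, e3]
    rfl
  have hG : ∫⁻ x, (coulomb x (T₂ x) (T₃ x) + ENNReal.ofReal 3) ∂muS = Lval := by
    rw [lintegral_add_right _ measurable_const, lintegral_const, measure_univ, mul_one, hc, kv_add]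
  have hcm : Measurable (fun x => coulomb x (T₂ x) (T₃ x) + ENNReal.ofReal 3) := by
    have : Measurable (fun x : E3 => (x, T₂ x, T₃ x)) := measurable_id.prodMk (h₂.prodMk h₃)
    exact (measurable_costS.comp this).add_const _
  have hle : (fun x => fU x + fU (T₂ x) + fU (T₃ x))
      ≤ᵐ[muS] (fun x => coulomb x (T₂ x) (T₃ x) + ENNReal.ofReal 3) := by
    filter_upwards [muS_ae_SS, a2, a3] with x h1 h2 h3
    exact dual_le h1 h2 h3
  have heq := ae_eq_of_ae_le_of_lintegral_le hle (by rw [hF]; exact Lval_lt_top.ne)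
    hcm.aemeasurable (by rw [hF, hG])
  have good : ∀ᵐ x ∂muS, x ∈ SS ∧ T₂ x ∈ SS ∧ T₃ x ∈ SS ∧ Contact x (T₂ x) (T₃ x) := by
    filter_upwards [muS_ae_SS, a2, a3, heq] with x h1 h2 h3 h4
    exact ⟨h1, h2, h3, h4⟩
  have good' : ∀ᵐ x ∂muS, x ∈ SS ∧ T₃ x ∈ SS ∧ T₂ x ∈ SS ∧ Contact x (T₃ x) (T₂ x) := by
    filter_upwards [good] with x h
    exact ⟨h.1, h.2.2.1, h.2.1, h.2.2.2.swap23⟩
  have n2 := monge_thick h₂ m₂ good
  have n3 := monge_thick h₃ m₃ good'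
  have hE2m : MeasurableSet (T₂ ⁻¹' Sh 1) := h₂ (measurableSet_Sh 1)
  have hE3m : MeasurableSet (T₃ ⁻¹' Sh 1) := h₃ (measurableSet_Sh 1)
  have ms2 : muS (T₂ ⁻¹' Sh 1) = 1 / 6 := by
    rw [← Measure.map_apply h₂ (measurableSet_Sh 1), m₂, muS_Sh1]
  have ms3 : muS (T₃ ⁻¹' Sh 1) = 1 / 6 := by
    rw [← Measure.map_apply h₃ (measurableSet_Sh 1), m₃, muS_Sh1]
  have hinter : muS (T₂ ⁻¹' Sh 1 ∩ T₃ ⁻¹' Sh 1) = 0 := by
    rw [measure_eq_zero_iff_ae_notMem]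
    filter_upwards [good] with x h hx
    obtain ⟨h1, h2, h3, h4⟩ := h
    have hy : T₂ x ∈ Sh 1 := hx.1
    have hz : T₃ x ∈ Sh 1 := hx.2
    rcases contact_p h1 hy h3 h4 with ⟨-, h5, -⟩ | ⟨-, h5, -⟩
    · exact absurd (Sh_disjoint hz h5) (by decide)
    · exact absurd (Sh_disjoint hz h5) (by decide)
  have n2' : ∀ᵐ x ∂muS, x ∉ T₂ ⁻¹' Sh 1 ∩ Sh 0 := measure_eq_zero_iff_ae_notMem.mp n2
  have n3' : ∀ᵐ x ∂muS, x ∉ T₃ ⁻¹' Sh 1 ∩ Sh 0 := measure_eq_zero_iff_ae_notMem.mp n3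
  have hunion : muS (T₂ ⁻¹' Sh 1 ∪ T₃ ⁻¹' Sh 1) ≤ muS (Sh 2) := by
    apply measure_mono_ae
    filter_upwards [good, n2', n3'] with x h hn2 hn3 hx
    obtain ⟨h1, h2, h3, h4⟩ := h
    rcases hx with hx | hx
    · have hy : T₂ x ∈ Sh 1 := hx
      rcases contact_p h1 hy h3 h4 with ⟨h5, -, -⟩ | ⟨h5, -, -⟩
      · exact absurd ⟨hx, h5⟩ hn2
      · exact h5
    · have hy : T₃ x ∈ Sh 1 := hx
      rcases contact_p h1 hy h2 h4.swap23 with ⟨h5, -, -⟩ | ⟨h5, -, -⟩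
      · exact absurd ⟨hx, h5⟩ hn3
      · exact h5
  have hadd := measure_union_add_inter (μ := muS) (T₂ ⁻¹' Sh 1) hE3m
  rw [hinter, add_zero, ms2, ms3] at hadd
  rw [hadd, muS_Sh2] at hunion
  have h6 : (1 / 6 : ℝ≥0∞) ≠ 0 := by simp
  have h7 : (1 / 6 : ℝ≥0∞) ≠ ∞ := by simp
  have hlt : (1 / 6 : ℝ≥0∞) < 1 / 6 + 1 / 6 := ENNReal.lt_add_right h7 h6
  exact absurd hunion (not_le.mpr hlt)

/-- The main theorem: a negative answer to the existence of optimal Monge plans. -/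
theorem main_counterexample :
    ∃ μ : Measure E3, IsProbabilityMeasure μ ∧ μ ≪ volume ∧ kantorovichValue μ < ∞ ∧
      ¬ ∃ T₂ T₃ : E3 → E3, Measurable T₂ ∧ Measurable T₃ ∧ μ.map T₂ = μ ∧ μ.map T₃ = μ ∧
        ∫⁻ x, coulomb x (T₂ x) (T₃ x) ∂μ = kantorovichValue μ := by
  refine ⟨muS, inferInstance, muS_ac, kv_lt_top, ?_⟩
  rintro ⟨T₂, T₃, h₂, h₃, m₂, m₃, hc⟩
  exact no_monge h₂ h₃ m₂ m₃ hc

end Vale.Agent.Lib.P121
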