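import Vale.Agent.Lib.P121.Tangent

open MeasureTheory Set
open scoped ENNReal

namespace Vale.Agent.Lib.P121

/-- Left end of the parameter interval. -/
noncomputable def a0 : ℝ := 11 / 5
/-- Right end of the parameter interval. -/
noncomputable def a1 : ℝ := 22001 / 10000
/-- The parameter interval. -/
def I : Set ℝ := Icc (11 / 5 : ℝ) (22001 / 10000)

noncomputable def rr (a : ℝ) : ℝ := Real.sqrt (4 * a ^ 2 - 1)
noncomputable def sg (a : ℝ) : ℝ := 2 * a ^ 3 + 1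
noncomputable def rho (a : ℝ) : ℝ := a ^ 3 * rr a / sg a
noncomputable def wW (a : ℝ) : ℝ := rr a / a ^ 3
noncomputable def sS (a : ℝ) : ℝ := a ^ 2 * (a ^ 4 + a + 1) / (sg a) ^ 2
noncomputable def rR (a : ℝ) : ℝ := Real.sqrt (sS a)
noncomputable def pp (a : ℝ) : ℝ := 1 / 8 + (a - 11 / 5) / 10
noncomputable def dX (a : ℝ) : ℝ := 1 / (rho a - pp a)
noncomputable def dY (a : ℝ) : ℝ := Real.sqrt (wW a - dX a ^ 2)
noncomputable def qq (a : ℝ) : ℝ := 1 / dY a - rho a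
noncomputable def dZ (a : ℝ) : ℝ := 1 / (pp a + qq a)
/-- Derivative of `rho`. -/
noncomputable def rho' (a : ℝ) : ℝ := a ^ 2 * (8 * a ^ 5 + 16 * a ^ 2 - 3) / (rr a * (sg a) ^ 2)

section bounds

variable {a : ℝ}

lemma a_lo (ha : a ∈ I) : 11 / 5 ≤ a := ha.1
lemma a_hi (ha : a ∈ I) : a ≤ 22001 / 10000 := ha.2
lemma a_pos (ha : a ∈ I) : 0 < a := by
  have := a_lo ha
  linarith

lemma a2_lo (ha : a ∈ I) : 4.84 ≤ a ^ 2 := by
  have := a_lo ha
  norm_num at this ⊢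
  nlinarith
lemma a2_hi (ha : a ∈ I) : a ^ 2 ≤ 4.840441 := by have := a_lo ha; have := a_hi ha; nlinarith
lemma a3_lo (ha : a ∈ I) : 10.648 ≤ a ^ 3 := by
  have h1 := a_lo ha
  have h2 := a2_lo ha
  have : a ^ 3 = a ^ 2 * a := by ring
  rw [this]; nlinarith
lemma a3_hi (ha : a ∈ I) : a ^ 3 ≤ 10.64946 := by
  have h1 := a_hi ha
  have h0 := a_pos ha
  have h2 := a2_hi ha
  have : a ^ 3 = a ^ 2 * a := by ring
  rw [this]; nlinarith

lemma rr_sq (ha : a ∈ I) : rr a ^ 2 = 4 * a ^ 2 - 1 := by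
  have := a2_lo ha
  exact Real.sq_sqrt (by linarith)
lemma rr_lo (ha : a ∈ I) : 4.28485 ≤ rr a := by
  apply Real.le_sqrt_of_sq_le
  have := a2_lo ha
  norm_num at this ⊢
  linarith
lemma rr_hi (ha : a ∈ I) : rr a ≤ 4.28507 := by
  apply Real.sqrt_le_iff.mpr
  have := a2_hi ha
  constructor
  · norm_num
  · norm_num at this ⊢
    linarith
lemma rr_pos (ha : a ∈ I) : 0 < rr a := by have := rr_lo ha; linarith

lemma sg_lo (ha : a ∈ I) : 22.296 ≤ sg a := by have := a3_lo ha; unfold sg; linarith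
lemma sg_hi (ha : a ∈ I) : sg a ≤ 22.299 := by have := a3_hi ha; unfold sg; linarith
lemma sg_pos (ha : a ∈ I) : 0 < sg a := by have := sg_lo ha; linarith

lemma rho_lo (ha : a ∈ I) : 2.0463 ≤ rho a := by
  unfold rho
  rw [le_div_iff₀ (sg_pos ha)]
  have h1 := a3_lo ha
  have h2 := rr_lo ha
  unfold sg
  nlinarith
lemma rho_hi (ha : a ∈ I) : rho a ≤ 2.0465 := by
  unfold rho
  rw [div_le_iff₀ (sg_pos ha)]
  have h1 := a3_hi ha
  have h2 := rr_hi ha
  have h3 := a3_lo ha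
  unfold sg
  nlinarith
lemma rho_pos (ha : a ∈ I) : 0 < rho a := by have := rho_lo ha; linarith

lemma pp_lo (ha : a ∈ I) : 0.125 ≤ pp a := by have := a_lo ha; unfold pp; norm_num at *; linarith
lemma pp_hi (ha : a ∈ I) : pp a ≤ 0.12501 := by have := a_hi ha; unfold pp; norm_num at *; linarith
lemma pp_pos (ha : a ∈ I) : 0 < pp a := by have := pp_lo ha; linarith

lemma d1_lo (ha : a ∈ I) : 1.92129 ≤ rho a - pp a := by
  have := rho_lo ha; have := pp_hi ha; linarith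
lemma d1_hi (ha : a ∈ I) : rho a - pp a ≤ 1.9215 := by
  have := rho_hi ha; have := pp_lo ha; linarith
lemma d1_pos (ha : a ∈ I) : 0 < rho a - pp a := by have := d1_lo ha; linarith

lemma dX_lo (ha : a ∈ I) : 0.5204 ≤ dX a := by
  unfold dX
  rw [le_div_iff₀ (d1_pos ha)]
  have := d1_hi ha
  nlinarith
lemma dX_hi (ha : a ∈ I) : dX a ≤ 0.5205 := by
  unfold dX
  rw [div_le_iff₀ (d1_pos ha)]
  have := d1_lo ha
  nlinarith
lemma dX_pos (ha : a ∈ I) : 0 < dX a := by have := dX_lo ha; linarith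

lemma wW_lo (ha : a ∈ I) : 0.40235 ≤ wW a := by
  unfold wW
  have h0 : 0 < a ^ 3 := by have := a3_lo ha; linarith
  rw [le_div_iff₀ h0]
  have h1 := a3_hi ha
  have h2 := rr_lo ha
  nlinarith
lemma wW_hi (ha : a ∈ I) : wW a ≤ 0.40243 := by
  unfold wW
  have h0 : 0 < a ^ 3 := by have := a3_lo ha; linarith
  rw [div_le_iff₀ h0]
  have h1 := a3_lo ha
  have h2 := rr_hi ha
  nlinarith

lemma dY2_lo (ha : a ∈ I) : 0.1314 ≤ wW a - dX a ^ 2 := by
  have h1 := wW_lo ha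
  have h2 := dX_hi ha
  have h3 := dX_lo ha
  nlinarith
lemma dY2_hi (ha : a ∈ I) : wW a - dX a ^ 2 ≤ 0.1317 := by
  have h1 := wW_hi ha
  have h2 := dX_lo ha
  nlinarith

lemma dY_lo (ha : a ∈ I) : 0.3624 ≤ dY a := by
  apply Real.le_sqrt_of_sq_le
  have := dY2_lo ha
  norm_num at this ⊢
  linarith
lemma dY_hi (ha : a ∈ I) : dY a ≤ 0.3630 := by
  apply Real.sqrt_le_iff.mpr
  have := dY2_hi ha
  constructor
  · norm_num
  · norm_num at this ⊢
    linarith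
lemma dY_pos (ha : a ∈ I) : 0 < dY a := by have := dY_lo ha; linarith
lemma dY_sq (ha : a ∈ I) : dY a ^ 2 = wW a - dX a ^ 2 := by
  have := dY2_lo ha
  exact Real.sq_sqrt (by linarith)

lemma d3_lo (ha : a ∈ I) : 2.7548 ≤ 1 / dY a := by
  rw [le_div_iff₀ (dY_pos ha)]
  have := dY_hi ha
  nlinarith
lemma d3_hi (ha : a ∈ I) : 1 / dY a ≤ 2.7594 := by
  rw [div_le_iff₀ (dY_pos ha)]
  have := dY_lo ha
  nlinarith

lemma qq_lo (ha : a ∈ I) : 0.7083 ≤ qq a := by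
  have := d3_lo ha; have := rho_hi ha; unfold qq; linarith
lemma qq_hi (ha : a ∈ I) : qq a ≤ 0.7131 := by
  have := d3_hi ha; have := rho_lo ha; unfold qq; linarith
lemma qq_pos (ha : a ∈ I) : 0 < qq a := by have := qq_lo ha; linarith

lemma rho_add_qq (a : ℝ) : rho a + qq a = 1 / dY a := by unfold qq; ring

lemma d2_lo (ha : a ∈ I) : 0.8333 ≤ pp a + qq a := by
  have := pp_lo ha; have := qq_lo ha; linarith
lemma d2_hi (ha : a ∈ I) : pp a + qq a ≤ 0.83811 := by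
  have := pp_hi ha; have := qq_hi ha; linarith
lemma d2_pos (ha : a ∈ I) : 0 < pp a + qq a := by have := d2_lo ha; linarith

lemma dZ_lo (ha : a ∈ I) : 1.19 ≤ dZ a := by
  unfold dZ
  rw [le_div_iff₀ (d2_pos ha)]
  have := d2_hi ha
  nlinarith
lemma dZ_hi (ha : a ∈ I) : dZ a ≤ 1.201 := by
  unfold dZ
  rw [div_le_iff₀ (d2_pos ha)]
  have := d2_lo ha
  nlinarith

lemma sS_lo (ha : a ∈ I) : 0.2591 ≤ sS a := by
  unfold sS
  have h0 : 0 < (sg a) ^ 2 := by have := sg_pos ha; positivity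
  rw [le_div_iff₀ h0]
  have h1 := a2_lo ha
  have h2 := a_lo ha
  have h3 : 23.4256 ≤ a ^ 4 := by
    have : a ^ 4 = a ^ 2 * a ^ 2 := by ring
    rw [this]; nlinarith
  have h4 := sg_hi ha
  have h5 := sg_lo ha
  have h6 : (sg a) ^ 2 ≤ 497.3 := by nlinarith
  nlinarith
lemma sS_hi (ha : a ∈ I) : sS a ≤ 0.2593 := by
  unfold sS
  have h0 : 0 < (sg a) ^ 2 := by have := sg_pos ha; positivity
  rw [div_le_iff₀ h0]
  have h1 := a2_hi ha
  have h1' := a2_lo ha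
  have h2 := a_hi ha
  have h3 : a ^ 4 ≤ 23.43 := by
    have : a ^ 4 = a ^ 2 * a ^ 2 := by ring
    rw [this]; nlinarith
  have h3' : 23 ≤ a ^ 4 := by
    have : a ^ 4 = a ^ 2 * a ^ 2 := by ring
    rw [this]; nlinarith
  have h5 := sg_lo ha
  have h6 : 497.1 ≤ (sg a) ^ 2 := by nlinarith
  nlinarith
lemma sS_pos (ha : a ∈ I) : 0 < sS a := by have := sS_lo ha; linarith

lemma rR_lo (ha : a ∈ I) : 0.509 ≤ rR a := by
  apply Real.le_sqrt_of_sq_le
  have := sS_lo ha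
  norm_num at this ⊢
  linarith
lemma rR_hi (ha : a ∈ I) : rR a ≤ 0.5093 := by
  apply Real.sqrt_le_iff.mpr
  have := sS_hi ha
  constructor
  · norm_num
  · norm_num at this ⊢
    linarith
lemma rR_pos (ha : a ∈ I) : 0 < rR a := by have := rR_lo ha; linarith
lemma rR_sq (ha : a ∈ I) : rR a ^ 2 = sS a := Real.sq_sqrt (sS_pos ha).le

lemma rho'_lo (ha : a ∈ I) : 1.1 ≤ rho' a := by
  unfold rho'
  have hr := rr_pos ha
  have hs := sg_pos ha
  rw [le_div_iff₀ (by positivity)]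
  have h1 := a2_lo ha
  have h2 := a3_lo ha
  have h5 : 51.5 ≤ a ^ 5 := by
    have : a ^ 5 = a ^ 2 * a ^ 3 := by ring
    rw [this]; nlinarith
  have h6 : (sg a) ^ 2 ≤ 497.3 := by have := sg_hi ha; have := sg_lo ha; nlinarith
  have h7 := rr_hi ha
  have h8 : rr a * (sg a) ^ 2 ≤ 4.28507 * 497.3 := by
    apply mul_le_mul h7 h6 (by positivity) (by norm_num)
  have h9 : 4.84 * (8 * 51.5 + 16 * 4.84 - 3) ≤ a ^ 2 * (8 * a ^ 5 + 16 * a ^ 2 - 3) := by
    apply mul_le_mul h1 (by linarith) (by norm_num) (by positivity)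
  norm_num at h8 h9 ⊢
  linarith
lemma rho'_hi (ha : a ∈ I) : rho' a ≤ 1.11 := by
  unfold rho'
  have hr := rr_pos ha
  have hs := sg_pos ha
  rw [div_le_iff₀ (by positivity)]
  have h1 := a2_hi ha
  have h1' := a2_lo ha
  have h2 := a3_hi ha
  have h5 : a ^ 5 ≤ 51.6 := by
    have : a ^ 5 = a ^ 2 * a ^ 3 := by ring
    rw [this]
    have := a3_lo ha
    nlinarith
  have h5' : 50 ≤ a ^ 5 := by
    have : a ^ 5 = a ^ 2 * a ^ 3 := by ring
    rw [this]
    have := a3_lo ha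
    nlinarith
  have h6 : 497.1 ≤ (sg a) ^ 2 := by have := sg_lo ha; nlinarith
  have h7 := rr_lo ha
  have h8 : 4.28485 * 497.1 ≤ rr a * (sg a) ^ 2 := by
    apply mul_le_mul h7 h6 (by norm_num) hr.le
  have h9 : a ^ 2 * (8 * a ^ 5 + 16 * a ^ 2 - 3) ≤ 4.840441 * (8 * 51.6 + 16 * 4.840441 - 3) := by
    apply mul_le_mul h1 (by linarith) (by linarith) (by norm_num)
  norm_num at h8 h9 ⊢
  linarith
lemma rho'_pos (ha : a ∈ I) : 0 < rho' a := by have := rho'_lo ha; linarith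

end bounds

end Vale.Agent.Lib.P121
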