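import Vale.Agent.Lib.P121.Dual

open MeasureTheory Set
open scoped ENNReal

namespace Vale.Agent.Lib.P121

/-- The orthogonal group of `E3`, as the unitary elements of the bounded operators. -/
abbrev G : Type := unitary (E3 →L[ℝ] E3)

lemma cont_star : Continuous (fun A : E3 →L[ℝ] E3 => star A) :=
  (ContinuousLinearMap.adjoint : (E3 →L[ℝ] E3) ≃ₗᵢ⋆[ℝ] (E3 →L[ℝ] E3)).continuous

instance : ContinuousStar (E3 →L[ℝ] E3) := ⟨cont_star⟩

noncomputable instance : MeasurableSpace G := borel G
instance : BorelSpace G := ⟨rfl⟩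

instance : CompactSpace G := by
  have hcl : IsClosed (unitary (E3 →L[ℝ] E3) : Set (E3 →L[ℝ] E3)) := isClosed_unitary
  have hb : Bornology.IsBounded (unitary (E3 →L[ℝ] E3) : Set (E3 →L[ℝ] E3)) := by
    refine (Metric.isBounded_iff_subset_closedBall 0).2 ⟨1, fun x hx => ?_⟩
    have : ‖x‖ = 1 := CStarRing.norm_of_mem_unitary hx
    simp [this]
  exact isCompact_iff_compactSpace.mp (Metric.isCompact_of_isClosed_isBounded hcl hb)

/-- The action of the orthogonal group on `E3`. -/
def act (g : G) (x : E3) : E3 := (g : E3 →L[ℝ] E3) x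

lemma norm_act (g : G) (x : E3) : ‖act g x‖ = ‖x‖ := Unitary.norm_map g x

lemma act_mul (g h : G) (x : E3) : act (g * h) x = act g (act h x) := rfl

lemma act_one (x : E3) : act 1 x = x := rfl

lemma act_smul (g : G) (c : ℝ) (x : E3) : act g (c • x) = c • act g x :=
  map_smul (g : E3 →L[ℝ] E3) c x

lemma act_add (g : G) (x y : E3) : act g (x + y) = act g x + act g y :=
  map_add (g : E3 →L[ℝ] E3) x y

lemma act_sub (g : G) (x y : E3) : act g (x - y) = act g x - act g y :=
  map_sub (g : E3 →L[ℝ] E3) x y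

lemma edist_act (g : G) (x y : E3) : edist (act g x) (act g y) = edist x y := by
  rw [edist_dist, edist_dist, dist_eq_norm, dist_eq_norm, ← act_sub, norm_act]

lemma coulomb_act (g : G) (x y z : E3) :
    coulomb (act g x) (act g y) (act g z) = coulomb x y z := by
  unfold coulomb
  rw [edist_act, edist_act, edist_act]

lemma u_act (g : G) (x : E3) : u (act g x) = u x := by
  unfold u
  rw [norm_act]

lemma continuous_act : Continuous (fun p : G × E3 => act p.1 p.2) := by
  unfold act
  exact (continuous_subtype_val.comp continuous_fst).clm_apply continuous_snd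

lemma measurable_act : Measurable (fun p : G × E3 => act p.1 p.2) :=
  continuous_act.measurable

lemma measurePreserving_act (g : G) : MeasurePreserving (act g) volume volume :=
  (Unitary.linearIsometryEquiv g).measurePreserving

/-- Transitivity of the orthogonal group on spheres. -/
lemma exists_act_eq {x y : E3} (h : ‖x‖ = ‖y‖) : ∃ k : G, act k x = y := by
  refine ⟨Unitary.linearIsometryEquiv.symm (Submodule.reflection (ℝ ∙ (x - y))ᗮ), ?_⟩
  exact Submodule.reflection_sub h

/-- The invariant probability measure on the orthogonal group. -/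
noncomputable def PG : Measure G := Measure.haarMeasure ⊤

instance : IsProbabilityMeasure PG := by
  constructor
  have : Measure.haarMeasure (⊤ : TopologicalSpace.PositiveCompacts G)
      ((⊤ : TopologicalSpace.PositiveCompacts G) : Set G) = 1 := Measure.haarMeasure_self
  simpa [PG] using this

instance : PG.IsMulLeftInvariant := by
  unfold PG
  infer_instance

/-- The probability that a random rotation sends `x` into `A`. -/
noncomputable def hit (A : Set E3) (x : E3) : ℝ≥0∞ := PG {g | act g⁻¹ x ∈ A}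

lemma measurable_actinv : Measurable (fun p : E3 × G => act p.2⁻¹ p.1) :=
  measurable_act.comp ((continuous_inv.measurable.comp measurable_snd).prodMk measurable_fst)

lemma hit_radial (A : Set E3) {x y : E3} (h : ‖x‖ = ‖y‖) : hit A x = hit A y := by
  obtain ⟨k, hk⟩ := exists_act_eq h
  unfold hit
  have : {g : G | act g⁻¹ y ∈ A} = (fun g => k⁻¹ * g) ⁻¹' {g | act g⁻¹ x ∈ A} := by
    ext g
    simp only [mem_ofPred_eq, mem_preimage]
    rw [mul_inv_rev, inv_inv, act_mul, hk]
  rw [this, measure_preimage_mul]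

lemma measurable_hit {A : Set E3} (hA : MeasurableSet A) : Measurable (hit A) := by
  have hD : MeasurableSet {p : E3 × G | act p.2⁻¹ p.1 ∈ A} := measurable_actinv hA
  exact measurable_measure_prodMk_left hD

lemma hit_ae_zero {A : Set E3} (hA : MeasurableSet A) (h0 : volume A = 0) :
    ∀ᵐ x ∂(volume : Measure E3), hit A x = 0 := by
  have hD : MeasurableSet {p : E3 × G | act p.2⁻¹ p.1 ∈ A} := measurable_actinv hA
  have h1 : ((volume : Measure E3).prod PG) {p : E3 × G | act p.2⁻¹ p.1 ∈ A} = 0 := by
    rw [Measure.prod_apply_symm hD]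
    have : ∀ g : G, (volume : Measure E3) ((fun x => (x, g)) ⁻¹' {p : E3 × G | act p.2⁻¹ p.1 ∈ A})
        = 0 := by
      intro g
      have e : (fun x : E3 => (x, g)) ⁻¹' {p : E3 × G | act p.2⁻¹ p.1 ∈ A} = act g⁻¹ ⁻¹' A := rfl
      rw [e, (measurePreserving_act g⁻¹).measure_preimage hA.nullMeasurableSet, h0]
    rw [lintegral_congr this, lintegral_zero]
  rw [Measure.prod_apply hD] at h1
  exact (lintegral_eq_zero_iff (measurable_hit hA)).mp h1

/-- A radial set of measure zero comes from a set of radii of measure zero. -/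
lemma polar_null {N : Set ℝ} (hN : MeasurableSet N) (h : volume {x : E3 | ‖x‖ ∈ N} = 0) :
    volume (N ∩ Ioi 0) = 0 := by
  have hmp := (volume : Measure E3).measurePreserving_homeomorphUnitSphereProd
  let N' : Set (Ioi (0 : ℝ)) := (↑) ⁻¹' N
  have hN' : MeasurableSet N' := measurable_subtype_coe hN
  let B : Set (Metric.sphere (0 : E3) 1 × Ioi (0 : ℝ)) := univ ×ˢ N'
  have hB : MeasurableSet B := MeasurableSet.univ.prod hN'
  have h1 := hmp.measure_preimage hB.nullMeasurableSet
  rw [Measure.prod_prod, Measure.toSphere_apply_univ] at h1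
  have h2 : ((volume : Measure E3).comap (↑)) (homeomorphUnitSphereProd E3 ⁻¹' B) = 0 := by
    rw [comap_subtype_coe_apply (measurableSet_singleton _).compl]
    refine measure_mono_null ?_ h
    rintro _ ⟨⟨x, hx⟩, hxB, rfl⟩
    have : ((homeomorphUnitSphereProd E3 ⟨x, hx⟩).2 : ℝ) ∈ N := hxB.2
    simpa using this
  rw [h2] at h1
  have hball : (volume : Measure E3) (Metric.ball 0 1) ≠ 0 :=
    (Metric.measure_ball_pos _ _ one_pos).ne'
  have hdim : ((Module.finrank ℝ E3 : ℕ) : ℝ≥0∞) ≠ 0 := by
    have : 0 < Module.finrank ℝ E3 := Module.finrank_pos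
    exact_mod_cast this.ne'
  have h3 : Measure.volumeIoiPow (Module.finrank ℝ E3 - 1) N' = 0 := by
    have := h1.symm
    simp only [mul_eq_zero, hdim, hball, false_or] at this
    exact this
  rw [Measure.volumeIoiPow, withDensity_apply _ hN',
    setLIntegral_subtype measurableSet_Ioi _
      (fun a : ℝ => ENNReal.ofReal (a ^ (Module.finrank ℝ E3 - 1)))] at h3
  have hi : (Subtype.val '' N' : Set ℝ) = N ∩ Ioi 0 := by
    ext a
    constructor
    · rintro ⟨b, hb, rfl⟩
      exact ⟨hb, b.2⟩
    · rintro ⟨h1, h2⟩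
      exact ⟨⟨a, h2⟩, h1, rfl⟩
  rw [hi] at h3
  have hs : MeasurableSet (N ∩ Ioi (0 : ℝ)) := hN.inter measurableSet_Ioi
  rw [setLIntegral_eq_zero_iff hs (by fun_prop)] at h3
  rw [measure_eq_zero_iff_ae_notMem]
  filter_upwards [h3] with a ha hmem
  have := ha hmem
  have hpos : 0 < a ^ (Module.finrank ℝ E3 - 1) := pow_pos hmem.2 _
  rw [ENNReal.ofReal_eq_zero] at this
  exact absurd this (not_le.mpr hpos)

/-- First vector of the standard frame. -/
noncomputable def e1 : E3 := EuclideanSpace.single 0 1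
/-- Second vector of the standard frame. -/
noncomputable def e2 : E3 := EuclideanSpace.single 1 1

lemma norm_e1 : ‖e1‖ = 1 := by simp [e1]
lemma norm_e2 : ‖e2‖ = 1 := by simp [e2]

lemma hit_radial_null {A : Set E3} (hA : MeasurableSet A) (h0 : volume A = 0) :
    volume ({r : ℝ | hit A (r • e1) ≠ 0} ∩ Ioi 0) = 0 := by
  have hm : Measurable (fun r : ℝ => hit A (r • e1)) :=
    (measurable_hit hA).comp (measurable_id.smul_const e1)
  have hN : MeasurableSet {r : ℝ | hit A (r • e1) ≠ 0} :=
    (hm (measurableSet_singleton (0 : ℝ≥0∞))).compl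
  apply polar_null hN
  have := hit_ae_zero hA h0
  rw [ae_iff] at this
  refine measure_mono_null ?_ this
  intro x hx
  have hx' : hit A (‖x‖ • e1) ≠ 0 := hx
  have e : ‖(‖x‖ • e1)‖ = ‖x‖ := by
    rw [norm_smul, norm_e1]
    simp
  rw [hit_radial A e] at hx'
  exact hx'

/-- Pull back of a null set along a function with nonvanishing derivative, injective on `I`. -/
lemma preimage_null {r r' : ℝ → ℝ} (hr : Measurable r)
    (hder : ∀ a ∈ I, HasDerivAt r (r' a) a) (hinj : InjOn r I) (hne : ∀ a ∈ I, r' a ≠ 0)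
    {N : Set ℝ} (hN : MeasurableSet N) (hnull : volume N = 0) : volume (I ∩ r ⁻¹' N) = 0 := by
  have hs : MeasurableSet (I ∩ r ⁻¹' N) := measurableSet_I.inter (hr hN)
  have key := lintegral_image_eq_lintegral_abs_deriv_mul (f := r) (f' := deriv r) hs
    (fun x hx => by
      rw [(hder x hx.1).deriv]
      exact (hder x hx.1).hasDerivWithinAt)
    (hinj.mono inter_subset_left) (fun _ => 1)
  have hl : ∫⁻ x in r '' (I ∩ r ⁻¹' N), (1 : ℝ≥0∞) = 0 := by
    rw [setLIntegral_one]
    refine measure_mono_null ?_ hnull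
    rintro _ ⟨x, hx, rfl⟩
    exact hx.2
  rw [hl] at key
  have hmeas : Measurable (fun x => ENNReal.ofReal |deriv r x| * (1 : ℝ≥0∞)) := by
    have := measurable_deriv r
    fun_prop
  rw [eq_comm, setLIntegral_eq_zero_iff hs hmeas] at key
  rw [measure_eq_zero_iff_ae_notMem]
  filter_upwards [key] with a ha hmem
  have := ha hmem
  rw [(hder a hmem.1).deriv] at this
  have hpos : 0 < |r' a| := abs_pos.mpr (hne a hmem.1)
  rw [mul_one, ENNReal.ofReal_eq_zero] at this
  exact absurd this (not_le.mpr hpos)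

/-- The law on the parameter interval. -/
noncomputable def mI : Measure ℝ := (10000 : ℝ≥0∞) • volume.restrict I

instance : IsProbabilityMeasure mI := by
  constructor
  unfold mI
  rw [Measure.smul_apply, Measure.restrict_apply MeasurableSet.univ, univ_inter, I, Real.volume_Icc]
  norm_num
  rw [← ENNReal.ofReal_ofNat, ← ENNReal.ofReal_mul (by norm_num)]
  norm_num

lemma ae_mI_mem : ∀ᵐ a ∂mI, a ∈ I := by
  unfold mI
  exact Measure.ae_smul_measure (ae_restrict_mem measurableSet_I) _

/-- The base probability space. -/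
noncomputable def QQ : Measure (ℝ × G) := mI.prod PG

instance : IsProbabilityMeasure QQ := by
  unfold QQ
  infer_instance

lemma ae_QQ_mem : ∀ᵐ w ∂QQ, w.1 ∈ I := by
  unfold QQ
  exact Measure.quasiMeasurePreserving_fst.ae ae_mI_mem

/-- Random configuration point. -/
noncomputable def rnd (y : ℝ → E3) (w : ℝ × G) : E3 := act w.2⁻¹ (y w.1)

lemma measurable_rnd {y : ℝ → E3} (hy : Measurable y) : Measurable (rnd y) := by
  unfold rnd
  exact measurable_act.comp
    ((continuous_inv.measurable.comp measurable_snd).prodMk (hy.comp measurable_fst))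

/-- Absolute continuity of the law of a randomly rotated curve whose radius has nonvanishing
derivative. -/
theorem law_ac {y : ℝ → E3} {r r' : ℝ → ℝ} (hy : Measurable y) (hr : Measurable r)
    (hnorm : ∀ a ∈ I, ‖y a‖ = r a) (hder : ∀ a ∈ I, HasDerivAt r (r' a) a)
    (hinj : InjOn r I) (hpos : ∀ a ∈ I, 0 < r a) (hne : ∀ a ∈ I, r' a ≠ 0) :
    QQ.map (rnd y) ≪ volume := by
  refine Measure.AbsolutelyContinuous.mk (fun A hA h0 => ?_)
  have hX := measurable_rnd hy
  rw [Measure.map_apply hX hA]
  unfold QQ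
  rw [Measure.prod_apply (hX hA)]
  -- the bad set of radii
  have hm : Measurable (fun r : ℝ => hit A (r • e1)) :=
    (measurable_hit hA).comp (measurable_id.smul_const e1)
  have hNm : MeasurableSet ({r : ℝ | hit A (r • e1) ≠ 0} ∩ Ioi 0) :=
    ((hm (measurableSet_singleton (0 : ℝ≥0∞))).compl).inter measurableSet_Ioi
  have hnull := preimage_null hr hder hinj hne hNm (hit_radial_null hA h0)
  have hae : ∀ᵐ a ∂(volume : Measure ℝ), a ∉ I ∩ r ⁻¹' ({r : ℝ | hit A (r • e1) ≠ 0} ∩ Ioi 0) :=
    measure_eq_zero_iff_ae_notMem.mp hnull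
  have hae2 : ∀ᵐ a ∂mI, a ∉ I ∩ r ⁻¹' ({r : ℝ | hit A (r • e1) ≠ 0} ∩ Ioi 0) := by
    unfold mI
    exact Measure.ae_smul_measure (ae_restrict_of_ae hae) _
  rw [lintegral_eq_zero_iff' ]
  · filter_upwards [hae2, ae_mI_mem] with a ha haI
    have e : ‖(r a • e1)‖ = ‖y a‖ := by
      rw [norm_smul, norm_e1, hnorm a haI, Real.norm_eq_abs, abs_of_pos (hpos a haI), mul_one]
    have h1 : hit A (r a • e1) = 0 := by
      by_contra hc
      exact ha ⟨haI, hc, hpos a haI⟩
    rw [hit_radial A e] at h1
    exact h1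
  · exact (measurable_measure_prodMk_left (hX hA)).aemeasurable

end Vale.Agent.Lib.P121
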