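import Vale.Agent.Lib.P121.Config

open MeasureTheory Set
open scoped ENNReal

namespace Vale.Agent.Lib.P121

/-- Law of the thick shell point. -/
noncomputable def L0 : Measure E3 := QQ.map (rnd y0)
/-- Law of the inner shell point. -/
noncomputable def Lp : Measure E3 := QQ.map (rnd yp)
/-- Law of the opposite shell point. -/
noncomputable def Lq : Measure E3 := QQ.map (rnd yq)
/-- Law of the first side point. -/
noncomputable def La : Measure E3 := QQ.map (rnd ya)
/-- Law of the second side point. -/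
noncomputable def Lb : Measure E3 := QQ.map (rnd yb)

/-- The counterexample measure: the thick shell carries weight one third, the other
four laws carry weight one sixth each. -/
noncomputable def muS : Measure E3 := (1 / 6 : ℝ≥0∞) • (L0 + L0 + Lp + Lq + La + Lb)

lemma law_prob {y : ℝ → E3} (hy : Measurable y) : IsProbabilityMeasure (QQ.map (rnd y)) :=
  Measure.isProbabilityMeasure_map (measurable_rnd hy).aemeasurable

instance : IsProbabilityMeasure L0 := law_prob measurable_y0
instance : IsProbabilityMeasure Lp := law_prob measurable_yp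
instance : IsProbabilityMeasure Lq := law_prob measurable_yq
instance : IsProbabilityMeasure La := law_prob measurable_ya
instance : IsProbabilityMeasure Lb := law_prob measurable_yb

lemma muS_apply (B : Set E3) :
    muS B = (1 / 6 : ℝ≥0∞) * (L0 B + L0 B + Lp B + Lq B + La B + Lb B) := by
  simp only [muS, Measure.smul_apply, Measure.add_apply, smul_eq_mul]

instance : IsProbabilityMeasure muS := by
  constructor
  rw [muS_apply]
  simp only [measure_univ]
  have : (1 : ℝ≥0∞) + 1 + 1 + 1 + 1 + 1 = 6 := by norm_num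
  rw [this]
  exact ENNReal.div_mul_cancel (by norm_num) (by norm_num)

lemma L0_ac : L0 ≪ volume :=
  law_ac measurable_y0 measurable_rho (fun _ ha => norm_y0 ha) (fun _ ha => hasDerivAt_rho ha)
    rho_strictMono.injOn (fun _ ha => rho_pos ha) (fun _ ha => (rho'_pos ha).ne')
lemma Lp_ac : Lp ≪ volume :=
  law_ac (r' := fun _ => 1 / 10) measurable_yp measurable_pp (fun _ ha => norm_yp ha)
    (fun a _ => hasDerivAt_pp a) pp_strictMono.injOn (fun _ ha => pp_pos ha)
    (fun _ _ => by norm_num)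
lemma Lq_ac : Lq ≪ volume :=
  law_ac measurable_yq measurable_qq (fun _ ha => norm_yq ha) (fun _ ha => hasDerivAt_qq ha)
    qq_strictAnti.injOn (fun _ ha => qq_pos ha) (fun _ ha => (qq'_neg ha).ne)
lemma La_ac : La ≪ volume :=
  law_ac measurable_ya measurable_rR (fun _ ha => norm_ya ha) (fun _ ha => hasDerivAt_rR ha)
    rR_strictAnti.injOn (fun _ ha => rR_pos ha) (fun _ ha => (rR'_neg ha).ne)
lemma Lb_ac : Lb ≪ volume :=
  law_ac measurable_yb measurable_rR (fun _ ha => norm_yb ha) (fun _ ha => hasDerivAt_rR ha)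
    rR_strictAnti.injOn (fun _ ha => rR_pos ha) (fun _ ha => (rR'_neg ha).ne)

lemma muS_ac : muS ≪ volume := by
  unfold muS
  exact ((((((L0_ac.add_left L0_ac).add_left Lp_ac).add_left Lq_ac).add_left La_ac).add_left
    Lb_ac)).smul_left _

/-! Concentration of the laws on their shells. -/

lemma law_ae {y : ℝ → E3} {j : Fin 4} (hm : Measurable y) (hy : ∀ a ∈ I, y a ∈ Sh j) :
    ∀ᵐ x ∂(QQ.map (rnd y)), x ∈ Sh j := by
  refine (ae_map_iff (measurable_rnd hm).aemeasurable (p := fun x => x ∈ Sh j)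
    (measurableSet_Sh j)).mpr ?_
  filter_upwards [ae_QQ_mem] with w hw using rnd_mem hy hw

lemma law_self {y : ℝ → E3} {j : Fin 4} (hm : Measurable y) (hy : ∀ a ∈ I, y a ∈ Sh j) :
    (QQ.map (rnd y)) (Sh j) = 1 := by
  have := law_prob hm
  have h := law_ae hm hy
  rw [ae_iff] at h
  exact (prob_compl_eq_zero_iff (measurableSet_Sh j)).mp h

lemma law_other {y : ℝ → E3} {j k : Fin 4} (hm : Measurable y) (hy : ∀ a ∈ I, y a ∈ Sh j)
    (hk : k ≠ j) {W : Set E3} (hW : W ⊆ Sh k) : (QQ.map (rnd y)) W = 0 := by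
  have h := law_ae hm hy
  rw [ae_iff] at h
  refine measure_mono_null ?_ h
  intro x hx hxj
  exact hk (Sh_disjoint (hW hx) hxj)

lemma muS_ae_SS : ∀ᵐ x ∂muS, x ∈ SS := by
  have key : ∀ {y : ℝ → E3} {j : Fin 4}, Measurable y → (∀ a ∈ I, y a ∈ Sh j) →
      (QQ.map (rnd y)) SSᶜ = 0 := by
    intro y j hm hy
    have h := law_ae hm hy
    rw [ae_iff] at h
    refine measure_mono_null ?_ h
    intro x hx hxj
    exact hx (mem_SS hxj)
  rw [ae_iff]
  have e : {a | ¬ a ∈ SS} = SSᶜ := rfl
  rw [e, muS_apply]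
  have h0 : L0 SSᶜ = 0 := key measurable_y0 (fun _ ha => y0_mem ha)
  have hp : Lp SSᶜ = 0 := key measurable_yp (fun _ ha => yp_mem ha)
  have hq : Lq SSᶜ = 0 := key measurable_yq (fun _ ha => yq_mem ha)
  have ha : La SSᶜ = 0 := key measurable_ya (fun _ ha => ya_mem ha)
  have hb : Lb SSᶜ = 0 := key measurable_yb (fun _ ha => yb_mem ha)
  rw [h0, hp, hq, ha, hb]
  simp

lemma muS_Sh1 : muS (Sh 1) = 1 / 6 := by
  rw [muS_apply]
  have h0 : L0 (Sh 1) = 0 :=
    law_other measurable_y0 (j := 0) (fun _ ha => y0_mem ha) (by decide) subset_rfl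
  have hp : Lp (Sh 1) = 1 := law_self measurable_yp (fun _ ha => yp_mem ha)
  have hq : Lq (Sh 1) = 0 :=
    law_other measurable_yq (j := 2) (fun _ ha => yq_mem ha) (by decide) subset_rfl
  have ha : La (Sh 1) = 0 :=
    law_other measurable_ya (j := 3) (fun _ ha => ya_mem ha) (by decide) subset_rfl
  have hb : Lb (Sh 1) = 0 :=
    law_other measurable_yb (j := 3) (fun _ ha => yb_mem ha) (by decide) subset_rfl
  rw [h0, hp, hq, ha, hb]
  simp

lemma muS_Sh2 : muS (Sh 2) = 1 / 6 := by
  rw [muS_apply]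
  have h0 : L0 (Sh 2) = 0 :=
    law_other measurable_y0 (j := 0) (fun _ ha => y0_mem ha) (by decide) subset_rfl
  have hp : Lp (Sh 2) = 0 :=
    law_other measurable_yp (j := 1) (fun _ ha => yp_mem ha) (by decide) subset_rfl
  have hq : Lq (Sh 2) = 1 := law_self measurable_yq (fun _ ha => yq_mem ha)
  have ha : La (Sh 2) = 0 :=
    law_other measurable_ya (j := 3) (fun _ ha => ya_mem ha) (by decide) subset_rfl
  have hb : Lb (Sh 2) = 0 :=
    law_other measurable_yb (j := 3) (fun _ ha => yb_mem ha) (by decide) subset_rfl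
  rw [h0, hp, hq, ha, hb]
  simp

lemma psi_rnd {w : ℝ × G} (hw : w.1 ∈ I) : ψ (rnd yp w) = rnd y0 w := by
  have hn : ‖rnd yp w‖ = pp w.1 := by
    unfold rnd
    rw [norm_act, norm_yp hw]
  have hpp := (pp_pos hw).ne'
  unfold ψ
  rw [hn, κ_pp hw]
  unfold rnd yp y0
  rw [act_smul, act_smul, smul_smul]
  congr 1
  field_simp

/-- The thick shell carries twice the mass of the inner-shell preimage. -/
lemma muS_thick {W : Set E3} (hWm : MeasurableSet W) (hW : W ⊆ Sh 0) :
    muS W = 2 * muS (ψ ⁻¹' W ∩ Sh 1) := by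
  have hC : MeasurableSet (ψ ⁻¹' W ∩ Sh 1) := (measurable_ψ hWm).inter (measurableSet_Sh 1)
  have hsub : ψ ⁻¹' W ∩ Sh 1 ⊆ Sh 1 := inter_subset_right
  have e1 : Lp (ψ ⁻¹' W ∩ Sh 1) = L0 W := by
    unfold Lp L0
    rw [Measure.map_apply (measurable_rnd measurable_yp) hC,
      Measure.map_apply (measurable_rnd measurable_y0) hWm]
    apply measure_congr
    filter_upwards [ae_QQ_mem] with w hw
    apply propext
    constructor
    · rintro ⟨h1, -⟩
      have h1' : ψ (rnd yp w) ∈ W := h1
      rw [psi_rnd hw] at h1'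
      exact h1'
    · intro h1
      have h1' : rnd y0 w ∈ W := h1
      rw [← psi_rnd hw] at h1'
      exact ⟨h1', rnd_mem (fun _ ha => yp_mem ha) hw⟩
  have c0 : L0 (ψ ⁻¹' W ∩ Sh 1) = 0 :=
    law_other measurable_y0 (j := 0) (fun _ ha => y0_mem ha) (by decide) hsub
  have cq : Lq (ψ ⁻¹' W ∩ Sh 1) = 0 :=
    law_other measurable_yq (j := 2) (fun _ ha => yq_mem ha) (by decide) hsub
  have ca : La (ψ ⁻¹' W ∩ Sh 1) = 0 :=
    law_other measurable_ya (j := 3) (fun _ ha => ya_mem ha) (by decide) hsub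
  have cb : Lb (ψ ⁻¹' W ∩ Sh 1) = 0 :=
    law_other measurable_yb (j := 3) (fun _ ha => yb_mem ha) (by decide) hsub
  have wp : Lp W = 0 :=
    law_other measurable_yp (j := 1) (fun _ ha => yp_mem ha) (by decide) hW
  have wq : Lq W = 0 :=
    law_other measurable_yq (j := 2) (fun _ ha => yq_mem ha) (by decide) hW
  have wa : La W = 0 :=
    law_other measurable_ya (j := 3) (fun _ ha => ya_mem ha) (by decide) hW
  have wb : Lb W = 0 :=
    law_other measurable_yb (j := 3) (fun _ ha => yb_mem ha) (by decide) hW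
  rw [muS_apply, muS_apply, e1, c0, cq, ca, cb, wp, wq, wa, wb]
  simp only [add_zero, zero_add]
  ring

end Vale.Agent.Lib.P121
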