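import Vale.Agent.Lib.P121.Derivs

open MeasureTheory Set
open scoped ENNReal

namespace Vale.Agent.Lib.P121

/-- Clamp to the parameter interval. -/
noncomputable def cl (a : ℝ) : ℝ := max (11 / 5) (min a (22001 / 10000))

lemma cl_mem (a : ℝ) : cl a ∈ I := by
  unfold cl I
  constructor
  · exact le_max_left _ _
  · apply max_le
    · norm_num
    · exact min_le_right _ _

lemma cl_eq {a : ℝ} (ha : a ∈ I) : cl a = a := by
  unfold cl
  rw [min_eq_left ha.2, max_eq_right ha.1]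

lemma continuous_cl : Continuous cl := by
  unfold cl
  fun_prop

/-- Minus the primitive of the clamped integrand. -/
noncomputable def prim (j : ℝ → ℝ) (a : ℝ) : ℝ := -∫ τ in (11 / 5 : ℝ)..a, j (cl τ)

lemma hasDerivAt_prim {j : ℝ → ℝ} (hj : ContinuousOn j I) {a : ℝ} (ha : a ∈ I) :
    HasDerivAt (prim j) (-j a) a := by
  have hc : Continuous (fun τ => j (cl τ)) := hj.comp_continuous continuous_cl cl_mem
  have h := (hc.integral_hasStrictDerivAt (11 / 5 : ℝ) a).hasDerivAt.neg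
  have e : j (cl a) = j a := by rw [cl_eq ha]
  rw [e] at h
  exact h

lemma prim_bounds {j : ℝ → ℝ} (hj : ContinuousOn j I) {C : ℝ} (h0 : ∀ x ∈ I, 0 ≤ j x)
    (hC : ∀ x ∈ I, j x ≤ C) {a : ℝ} (ha : a ∈ I) :
    -(C / 10000) ≤ prim j a ∧ prim j a ≤ 0 := by
  have hc : Continuous (fun τ => j (cl τ)) := hj.comp_continuous continuous_cl cl_mem
  have hC0 : 0 ≤ C := (h0 (11 / 5) ⟨le_refl _, by norm_num⟩).trans (hC _ ⟨le_refl _, by norm_num⟩)
  have hle : (11 / 5 : ℝ) ≤ a := ha.1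
  have hnn : 0 ≤ ∫ τ in (11 / 5 : ℝ)..a, j (cl τ) :=
    intervalIntegral.integral_nonneg hle (fun u _ => h0 _ (cl_mem u))
  have hup : ‖∫ τ in (11 / 5 : ℝ)..a, j (cl τ)‖ ≤ C * |a - 11 / 5| := by
    apply intervalIntegral.norm_integral_le_of_norm_le_const
    intro x _
    rw [Real.norm_eq_abs, abs_of_nonneg (h0 _ (cl_mem x))]
    exact hC _ (cl_mem x)
  rw [Real.norm_eq_abs, abs_of_nonneg hnn, abs_of_nonneg (by linarith)] at hup
  have h2 : a - 11 / 5 ≤ 1 / 10000 := by have := ha.2; linarith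
  have h3 : C * (a - 11 / 5) ≤ C * (1 / 10000) := mul_le_mul_of_nonneg_left h2 hC0
  unfold prim
  constructor <;> linarith

/-- Strict minimum from the signs of a derivative on `I`. -/
lemma lt_of_deriv_sign {φ φ' : ℝ → ℝ} {t s : ℝ} (hφ : ∀ x ∈ I, HasDerivAt φ (φ' x) x)
    (h1 : ∀ x ∈ I, x < t → φ' x < 0) (h2 : ∀ x ∈ I, t < x → 0 < φ' x)
    (ht : t ∈ I) (hs : s ∈ I) (hst : s ≠ t) : φ t < φ s := by
  have hcont : ∀ {u v : ℝ}, u ∈ I → v ∈ I → ContinuousOn φ (Icc u v) := by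
    intro u v hu hv x hx
    have hxI : x ∈ I := ⟨hu.1.trans hx.1, hx.2.trans hv.2⟩
    exact (hφ x hxI).continuousAt.continuousWithinAt
  rcases lt_or_gt_of_ne hst with hlt | hgt
  · have hanti : StrictAntiOn φ (Icc s t) := by
      apply strictAntiOn_of_deriv_neg (convex_Icc s t) (hcont hs ht)
      intro x hx
      rw [interior_Icc] at hx
      have hxI : x ∈ I := ⟨hs.1.trans hx.1.le, hx.2.le.trans ht.2⟩
      rw [(hφ x hxI).deriv]
      exact h1 x hxI hx.2
    exact hanti ⟨le_refl _, hlt.le⟩ ⟨hlt.le, le_refl _⟩ hlt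
  · have hmono : StrictMonoOn φ (Icc t s) := by
      apply strictMonoOn_of_deriv_pos (convex_Icc t s) (hcont ht hs)
      intro x hx
      rw [interior_Icc] at hx
      have hxI : x ∈ I := ⟨ht.1.trans hx.1.le, hx.2.le.trans hs.2⟩
      rw [(hφ x hxI).deriv]
      exact h2 x hxI hx.1
    exact hmono ⟨le_refl _, hgt.le⟩ ⟨hgt.le, le_refl _⟩ hgt

/-- The pair inequality for a compatible pair of radial functions. -/
lemma pair_strict {f g V f' : ℝ → ℝ} (hf : ∀ x ∈ I, HasDerivAt f (f' x) x)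
    (hf0 : ∀ x ∈ I, 0 < f' x) (hg : StrictAntiOn g I)
    (hD : ∀ s ∈ I, ∀ t ∈ I, 0 < f s + g t)
    (hV : ∀ x ∈ I, HasDerivAt V (-(f' x) / (f x + g x) ^ 2) x)
    {s t : ℝ} (hs : s ∈ I) (ht : t ∈ I) (hst : s ≠ t) :
    V s - V t < 1 / (f s + g t) - 1 / (f t + g t) := by
  set φ : ℝ → ℝ := fun x => 1 / (f x + g t) - V x with hφdef
  set φ' : ℝ → ℝ := fun x => -(f' x) / (f x + g t) ^ 2 - (-(f' x) / (f x + g x) ^ 2) with hφ'def
  have hφ : ∀ x ∈ I, HasDerivAt φ (φ' x) x := by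
    intro x hx
    exact (hasDerivAt_one_div ((hf x hx).add_const (g t)) (hD x hx t ht).ne').fun_sub (hV x hx)
  have key : ∀ x ∈ I, φ' x = f' x * (1 / (f x + g x) ^ 2 - 1 / (f x + g t) ^ 2) := by
    intro x _
    simp only [hφ'def]
    ring
  have h1 : ∀ x ∈ I, x < t → φ' x < 0 := by
    intro x hx hlt
    rw [key x hx]
    apply mul_neg_of_pos_of_neg (hf0 x hx)
    have h3 : g t < g x := hg hx ht hlt
    have h4 := hD x hx t ht
    have h5 : f x + g t < f x + g x := by linarith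
    have h6 : 1 / (f x + g x) ^ 2 < 1 / (f x + g t) ^ 2 := by
      apply one_div_lt_one_div_of_lt (by positivity)
      exact pow_lt_pow_left₀ h5 h4.le (by norm_num)
    linarith
  have h2 : ∀ x ∈ I, t < x → 0 < φ' x := by
    intro x hx hlt
    rw [key x hx]
    apply mul_pos (hf0 x hx)
    have h3 : g x < g t := hg ht hx hlt
    have h4 := hD x hx x hx
    have h5 : f x + g x < f x + g t := by linarith
    have h6 : 1 / (f x + g t) ^ 2 < 1 / (f x + g x) ^ 2 := by
      apply one_div_lt_one_div_of_lt (by positivity)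
      exact pow_lt_pow_left₀ h5 h4.le (by norm_num)
    linarith
  have := lt_of_deriv_sign hφ h1 h2 ht hs hst
  simp only [hφdef] at this
  linarith

/-! Monotonicity of the radial functions. -/

lemma I_convex : Convex ℝ I := convex_Icc _ _

lemma strictMonoOn_of_hasDeriv {f f' : ℝ → ℝ} (hf : ∀ x ∈ I, HasDerivAt f (f' x) x)
    (h : ∀ x ∈ I, 0 < f' x) : StrictMonoOn f I := by
  apply strictMonoOn_of_deriv_pos I_convex
  · exact fun x hx => (hf x hx).continuousAt.continuousWithinAt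
  · intro x hx
    have hxI : x ∈ I := interior_subset hx
    rw [(hf x hxI).deriv]
    exact h x hxI

lemma strictAntiOn_of_hasDeriv {f f' : ℝ → ℝ} (hf : ∀ x ∈ I, HasDerivAt f (f' x) x)
    (h : ∀ x ∈ I, f' x < 0) : StrictAntiOn f I := by
  apply strictAntiOn_of_deriv_neg I_convex
  · exact fun x hx => (hf x hx).continuousAt.continuousWithinAt
  · intro x hx
    have hxI : x ∈ I := interior_subset hx
    rw [(hf x hxI).deriv]
    exact h x hxI

lemma rho_strictMono : StrictMonoOn rho I :=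
  strictMonoOn_of_hasDeriv (fun _ hx => hasDerivAt_rho hx) (fun _ hx => rho'_pos hx)
lemma pp_strictMono : StrictMonoOn pp I :=
  strictMonoOn_of_hasDeriv (fun x _ => hasDerivAt_pp x) (fun _ _ => by norm_num)
lemma qq_strictAnti : StrictAntiOn qq I :=
  strictAntiOn_of_hasDeriv (fun _ hx => hasDerivAt_qq hx) (fun _ hx => qq'_neg hx)
lemma rR_strictAnti : StrictAntiOn rR I :=
  strictAntiOn_of_hasDeriv (fun _ hx => hasDerivAt_rR hx) (fun _ hx => rR'_neg hx)
lemma sS_strictAnti : StrictAntiOn sS I :=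
  strictAntiOn_of_hasDeriv (fun _ hx => hasDerivAt_sS hx) (fun _ hx => sS'_neg hx)

/-! The integrands. -/

noncomputable def j1 (a : ℝ) : ℝ := rho' a * dX a ^ 2
noncomputable def j2 (a : ℝ) : ℝ := rho' a * dY a ^ 2
noncomputable def j3 (a : ℝ) : ℝ := 1 / 10 * dZ a ^ 2

lemma continuousOn_rho' : ContinuousOn rho' I := by
  intro x hx
  apply ContinuousAt.continuousWithinAt
  unfold rho'
  have hr := (hasDerivAt_rr hx).continuousAt
  have hs := (hasDerivAt_sg x).continuousAt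
  have hne : rr x * sg x ^ 2 ≠ 0 := by
    have := rr_pos hx
    have := sg_pos hx
    positivity
  exact ContinuousAt.div (by fun_prop) (hr.mul (hs.pow 2)) hne

lemma continuousOn_dX : ContinuousOn dX I :=
  fun x hx => (hasDerivAt_dX hx).continuousAt.continuousWithinAt
lemma continuousOn_dY : ContinuousOn dY I :=
  fun x hx => (hasDerivAt_dY hx).continuousAt.continuousWithinAt
lemma continuousOn_dZ : ContinuousOn dZ I := by
  intro x hx
  apply ContinuousAt.continuousWithinAt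
  unfold dZ
  have h1 := (hasDerivAt_pp x).continuousAt
  have h2 := (hasDerivAt_qq hx).continuousAt
  exact ContinuousAt.div continuousAt_const (h1.add h2) (d2_pos hx).ne'

lemma continuousOn_j1 : ContinuousOn j1 I := continuousOn_rho'.mul (continuousOn_dX.pow 2)
lemma continuousOn_j2 : ContinuousOn j2 I := continuousOn_rho'.mul (continuousOn_dY.pow 2)
lemma continuousOn_j3 : ContinuousOn j3 I := continuousOn_const.mul (continuousOn_dZ.pow 2)

/-! The potentials. -/

noncomputable def V1 (a : ℝ) : ℝ := prim j1 a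
noncomputable def V2 (a : ℝ) : ℝ := prim j2 a
noncomputable def V3 (a : ℝ) : ℝ := prim j3 a

/-- Potential on the thick shell. -/
noncomputable def U1 (a : ℝ) : ℝ := -(21 / 100) + V1 a + V2 a
/-- Potential on the `pp` shell. -/
noncomputable def Up (a : ℝ) : ℝ := 1 + (dX a - V1 a) + V3 a
/-- Potential on the `qq` shell. -/
noncomputable def Uq (a : ℝ) : ℝ := 21 / 100 - 1 + (dY a - V2 a) + (dZ a - V3 a)
/-- Potential on the `rR` shell. -/
noncomputable def UR (a : ℝ) : ℝ := (2 / a + 1 - U1 a) / 2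

section

variable {a : ℝ}

lemma hasDerivAt_V1 (ha : a ∈ I) : HasDerivAt V1 (-(rho' a) / (rho a + -pp a) ^ 2) a := by
  have h := hasDerivAt_prim continuousOn_j1 ha
  refine HasDerivAt.congr_deriv h ?_
  unfold j1 dX
  rw [← sub_eq_add_neg]
  have := d1_pos ha
  field_simp

lemma hasDerivAt_V2 (ha : a ∈ I) : HasDerivAt V2 (-(rho' a) / (rho a + qq a) ^ 2) a := by
  have h := hasDerivAt_prim continuousOn_j2 ha
  refine HasDerivAt.congr_deriv h ?_
  unfold j2
  rw [rho_add_qq]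
  have := dY_pos ha
  field_simp

lemma hasDerivAt_V3 (ha : a ∈ I) : HasDerivAt V3 (-(1 / 10) / (pp a + qq a) ^ 2) a := by
  have h := hasDerivAt_prim continuousOn_j3 ha
  refine HasDerivAt.congr_deriv h ?_
  unfold j3 dZ
  have := d2_pos ha
  field_simp

lemma hasDerivAt_U1 (ha : a ∈ I) : HasDerivAt U1 (-(rho' a * wW a)) a := by
  have h := ((hasDerivAt_prim continuousOn_j1 ha).const_add (-(21 / 100 : ℝ))).fun_add
    (hasDerivAt_prim continuousOn_j2 ha)
  refine HasDerivAt.congr_deriv h ?_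
  unfold j1 j2
  rw [← dX_sq_add_dY_sq ha]
  ring

lemma hasDerivAt_UR (ha : a ∈ I) : HasDerivAt UR (-((2 + 1 / a ^ 3) / 2) * sS' a) a := by
  have h0 := a_pos ha
  have h1 : HasDerivAt (fun x : ℝ => 2 / x) (-(2 / a ^ 2)) a := by
    have := (hasDerivAt_const a (2 : ℝ)).fun_div (hasDerivAt_id' a) h0.ne'
    exact this.congr_deriv (by ring)
  have h2 := ((h1.add_const (1 : ℝ)).fun_sub (hasDerivAt_U1 ha)).div_const 2
  refine HasDerivAt.congr_deriv h2 ?_
  rw [← envelope_identity ha]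
  ring

/-- The tangent inequality for the concave potential on the `rR` shell. -/
lemma UR_tangent {b : ℝ} (ha : a ∈ I) (hb : b ∈ I) :
    UR b ≤ UR a + (2 + 1 / a ^ 3) / 2 * (sS a - sS b) := by
  by_cases hab : b = a
  · subst hab; simp
  set φ : ℝ → ℝ := fun x => -(UR x + (2 + 1 / a ^ 3) / 2 * (sS x - sS a)) with hφdef
  set φ' : ℝ → ℝ := fun x => -(-((2 + 1 / x ^ 3) / 2) * sS' x + (2 + 1 / a ^ 3) / 2 * sS' x)
    with hφ'def
  have hφ : ∀ x ∈ I, HasDerivAt φ (φ' x) x := by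
    intro x hx
    exact (((hasDerivAt_UR hx).fun_add
      (((hasDerivAt_sS hx).sub_const (sS a)).const_mul ((2 + 1 / a ^ 3) / 2)))).neg
  have key : ∀ x ∈ I, φ' x = sS' x * ((1 / x ^ 3 - 1 / a ^ 3) / 2) := by
    intro x _
    simp only [hφ'def]
    ring
  have h1 : ∀ x ∈ I, x < a → φ' x < 0 := by
    intro x hx hlt
    rw [key x hx]
    apply mul_neg_of_neg_of_pos (sS'_neg hx)
    have hx0 := a_pos hx
    have : 1 / a ^ 3 < 1 / x ^ 3 := by
      apply one_div_lt_one_div_of_lt (by positivity)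
      exact pow_lt_pow_left₀ hlt hx0.le (by norm_num)
    linarith
  have h2 : ∀ x ∈ I, a < x → 0 < φ' x := by
    intro x hx hlt
    rw [key x hx]
    apply mul_pos_of_neg_of_neg (sS'_neg hx)
    have hx0 := a_pos ha
    have : 1 / x ^ 3 < 1 / a ^ 3 := by
      apply one_div_lt_one_div_of_lt (by positivity)
      exact pow_lt_pow_left₀ hlt hx0.le (by norm_num)
    linarith
  have := lt_of_deriv_sign hφ h1 h2 ha hb hab
  simp only [hφdef] at this
  simp only [sub_self, mul_zero, add_zero] at this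
  linarith

/-- The virial identity on the isosceles branch. -/
lemma virial_iso (ha : a ∈ I) :
    (2 + 1 / a ^ 3) * sS a + 1 / 2 * (2 * (1 / a ^ 3) + (1 / a ^ 3) ^ 2) * rho a ^ 2
      = 1 / 2 * (2 / a + 1) := by
  have h0 := a_pos ha
  have hs := sg_pos ha
  have hr : rr a ^ 2 = 4 * a ^ 2 - 1 := rr_sq ha
  have e : rho a ^ 2 = a ^ 6 * (4 * a ^ 2 - 1) / sg a ^ 2 := by
    unfold rho
    rw [div_pow, mul_pow, hr]
    ring
  rw [e]
  unfold sS
  field_simp
  unfold sg
  ring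

/-- The isosceles inequality, radial form. -/
lemma iso_ineq {a2 a3 : ℝ} (ha : a ∈ I) (h2 : a2 ∈ I) (h3 : a3 ∈ I) :
    U1 a + UR a2 + UR a3 ≤ rankOne a a 1 (rho a ^ 2) (sS a2) (sS a3) := by
  have h0 := a_pos ha
  have t2 := UR_tangent ha h2
  have t3 := UR_tangent ha h3
  have v := virial_iso ha
  have eU : U1 a = 2 / a + 1 - 2 * UR a := by
    unfold UR
    ring
  have e : rankOne a a 1 (rho a ^ 2) (sS a2) (sS a3)
      = 3 / 2 * (2 / a + 1) - 1 / 2 * ((2 * (1 / a ^ 3) + (1 / a ^ 3) ^ 2) * rho a ^ 2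
        + (1 / a ^ 3 + 2) * sS a2 + (1 / a ^ 3 + 2) * sS a3) := by
    unfold rankOne
    have : (1 / a ^ 3) ≠ 0 := by positivity
    field_simp
    ring
  rw [e, eU]
  nlinarith [t2, t3, v]

/-- The three pair inequalities give the collinear radial inequality. -/
lemma collinear_radial {a2 a3 : ℝ} (ha : a ∈ I) (h2 : a2 ∈ I) (h3 : a3 ∈ I) :
    U1 a + Up a2 + Uq a3 ≤ 1 / (rho a - pp a2) + 1 / (rho a + qq a3) + 1 / (pp a2 + qq a3)
      ∧ (a ≠ a2 → U1 a + Up a2 + Uq a3
          < 1 / (rho a - pp a2) + 1 / (rho a + qq a3) + 1 / (pp a2 + qq a3)) := by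
  have hD1 : ∀ s ∈ I, ∀ t ∈ I, 0 < rho s + -pp t := by
    intro s hs t ht
    have := rho_lo hs
    have := pp_hi ht
    norm_num at *
    linarith
  have hD2 : ∀ s ∈ I, ∀ t ∈ I, 0 < rho s + qq t := by
    intro s hs t ht
    have := rho_pos hs
    have := qq_pos ht
    linarith
  have hD3 : ∀ s ∈ I, ∀ t ∈ I, 0 < pp s + qq t := by
    intro s hs t ht
    have := pp_pos hs
    have := qq_pos ht
    linarith
  have hp1 : ∀ {s t : ℝ}, s ∈ I → t ∈ I → s ≠ t →
      V1 s - V1 t < 1 / (rho s + -pp t) - 1 / (rho t + -pp t) := by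
    intro s t hs ht hst
    exact pair_strict (fun x hx => hasDerivAt_rho hx) (fun x hx => rho'_pos hx)
      (fun x hx y hy hxy => neg_lt_neg (pp_strictMono hx hy hxy)) hD1
      (fun x hx => hasDerivAt_V1 hx) hs ht hst
  have hp2 : ∀ {s t : ℝ}, s ∈ I → t ∈ I → s ≠ t →
      V2 s - V2 t < 1 / (rho s + qq t) - 1 / (rho t + qq t) := by
    intro s t hs ht hst
    exact pair_strict (fun x hx => hasDerivAt_rho hx) (fun x hx => rho'_pos hx)
      qq_strictAnti hD2 (fun x hx => hasDerivAt_V2 hx) hs ht hst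
  have hp3 : ∀ {s t : ℝ}, s ∈ I → t ∈ I → s ≠ t →
      V3 s - V3 t < 1 / (pp s + qq t) - 1 / (pp t + qq t) := by
    intro s t hs ht hst
    exact pair_strict (f' := fun _ => 1 / 10) (fun x _ => hasDerivAt_pp x) (fun _ _ => by norm_num)
      qq_strictAnti hD3 (fun x hx => hasDerivAt_V3 hx) hs ht hst
  have eX : ∀ t, 1 / (rho t + -pp t) = dX t := by
    intro t; unfold dX; rw [sub_eq_add_neg]
  have eY : ∀ t ∈ I, 1 / (rho t + qq t) = dY t := by
    intro t ht; rw [rho_add_qq]; have := dY_pos ht; field_simp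
  have eZ : ∀ t, 1 / (pp t + qq t) = dZ t := by intro t; rfl
  have q1 : V1 a - V1 a2 ≤ 1 / (rho a - pp a2) - dX a2 := by
    by_cases h : a = a2
    · subst h; unfold dX; simp
    · have := hp1 ha h2 h
      rw [eX, ← sub_eq_add_neg] at this
      exact this.le
  have q2 : V2 a - V2 a3 ≤ 1 / (rho a + qq a3) - dY a3 := by
    by_cases h : a = a3
    · subst h; rw [eY a ha]; simp
    · have := hp2 ha h3 h
      rw [eY a3 h3] at this
      exact this.le
  have q3 : V3 a2 - V3 a3 ≤ 1 / (pp a2 + qq a3) - dZ a3 := by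
    by_cases h : a2 = a3
    · subst h; rw [eZ]; simp
    · have := hp3 h2 h3 h
      rw [eZ a3] at this
      exact this.le
  have eS : U1 a + Up a2 + Uq a3
      = (V1 a - V1 a2) + (V2 a - V2 a3) + (V3 a2 - V3 a3) + dX a2 + dY a3 + dZ a3 := by
    unfold U1 Up Uq
    ring
  rw [eS]
  constructor
  · linarith
  · intro hne
    have := hp1 ha h2 hne
    rw [eX, ← sub_eq_add_neg] at this
    linarith

lemma potential_diag (ha : a ∈ I) : U1 a + Up a + Uq a = dX a + dY a + dZ a := by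
  unfold U1 Up Uq
  ring

/-! Numerical bounds on the potentials. -/

lemma j1_nonneg (ha : a ∈ I) : 0 ≤ j1 a := by
  unfold j1; have := rho'_pos ha; positivity
lemma j2_nonneg (ha : a ∈ I) : 0 ≤ j2 a := by
  unfold j2; have := rho'_pos ha; positivity
lemma j3_nonneg (_ha : a ∈ I) : 0 ≤ j3 a := by
  unfold j3; positivity
lemma j1_le (ha : a ∈ I) : j1 a ≤ 0.31 := by
  unfold j1
  have h1 := rho'_hi ha
  have h1' := rho'_pos ha
  have h2 := dX_hi ha
  have h3 := dX_pos ha
  have h4 : dX a ^ 2 ≤ 0.2710 := by nlinarith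
  have h5 : 0 ≤ dX a ^ 2 := by positivity
  nlinarith
lemma j2_le (ha : a ∈ I) : j2 a ≤ 0.15 := by
  unfold j2
  have h1 := rho'_hi ha
  have h1' := rho'_pos ha
  have h2 := dY_hi ha
  have h3 := dY_pos ha
  have h4 : dY a ^ 2 ≤ 0.1318 := by nlinarith
  have h5 : 0 ≤ dY a ^ 2 := by positivity
  nlinarith
lemma j3_le (ha : a ∈ I) : j3 a ≤ 0.15 := by
  unfold j3
  have h2 := dZ_hi ha
  have h3 := dZ_lo ha
  nlinarith

lemma V1_bd (ha : a ∈ I) : -0.000031 ≤ V1 a ∧ V1 a ≤ 0 := by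
  have := prim_bounds continuousOn_j1 (fun _ hx => j1_nonneg hx) (fun _ hx => j1_le hx) ha
  norm_num at this
  unfold V1
  norm_num
  exact this
lemma V2_bd (ha : a ∈ I) : -0.000015 ≤ V2 a ∧ V2 a ≤ 0 := by
  have := prim_bounds continuousOn_j2 (fun _ hx => j2_nonneg hx) (fun _ hx => j2_le hx) ha
  norm_num at this
  unfold V2
  norm_num
  exact this
lemma V3_bd (ha : a ∈ I) : -0.000015 ≤ V3 a ∧ V3 a ≤ 0 := by
  have := prim_bounds continuousOn_j3 (fun _ hx => j3_nonneg hx) (fun _ hx => j3_le hx) ha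
  norm_num at this
  unfold V3
  norm_num
  exact this

lemma U1_hi (ha : a ∈ I) : U1 a ≤ -0.21 := by
  unfold U1; have := (V1_bd ha).2; have := (V2_bd ha).2; norm_num at *; linarith
lemma U1_lo (ha : a ∈ I) : -0.2101 ≤ U1 a := by
  unfold U1; have := (V1_bd ha).1; have := (V2_bd ha).1; norm_num at *; linarith
lemma Up_hi (ha : a ∈ I) : Up a ≤ 1.5206 := by
  unfold Up; have := (V1_bd ha).1; have := (V3_bd ha).2; have := dX_hi ha; norm_num at *; linarith
lemma Up_lo (ha : a ∈ I) : 1.52 ≤ Up a := by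
  unfold Up; have := (V1_bd ha).2; have := (V3_bd ha).1; have := dX_lo ha; norm_num at *; linarith
lemma Uq_hi (ha : a ∈ I) : Uq a ≤ 0.7741 := by
  unfold Uq
  have := (V2_bd ha).1; have := (V3_bd ha).1; have := dY_hi ha; have := dZ_hi ha
  norm_num at *; linarith
lemma Uq_lo (ha : a ∈ I) : 0.76 ≤ Uq a := by
  unfold Uq
  have := (V2_bd ha).2; have := (V3_bd ha).2; have := dY_lo ha; have := dZ_lo ha
  norm_num at *; linarith
lemma UR_hi (ha : a ∈ I) : UR a ≤ 1.0597 := by
  unfold UR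
  have h1 := U1_lo ha
  have h2 : 2 / a ≤ 0.90910 := by
    rw [div_le_iff₀ (a_pos ha)]
    have := a_lo ha
    norm_num at *
    linarith
  norm_num at *
  linarith
lemma UR_lo (ha : a ∈ I) : 1 ≤ UR a := by
  unfold UR
  have h1 := U1_hi ha
  have h2 : 0.9 ≤ 2 / a := by
    rw [le_div_iff₀ (a_pos ha)]
    have := a_hi ha
    norm_num at *
    linarith
  norm_num at *
  linarith

end

end Vale.Agent.Lib.P121
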