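import Vale.Agent.Lib.P121.Potentials

open MeasureTheory Set
open scoped ENNReal

namespace Vale.Agent.Lib.P121

/-- The four radius functions: `0` thick shell, `1` inner shell, `2` opposite shell, `3` side shell. -/
noncomputable def rad (j : Fin 4) (a : ℝ) : ℝ := (![rho a, pp a, qq a, rR a] : Fin 4 → ℝ) j
/-- The four potentials. -/
noncomputable def pot (j : Fin 4) (a : ℝ) : ℝ := (![U1 a, Up a, Uq a, UR a] : Fin 4 → ℝ) j

/-- Lower bound for the radii. -/
noncomputable def radLo : Fin 4 → ℝ := ![2.0463, 0.125, 0.7083, 0.509]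
/-- Upper bound for the radii. -/
noncomputable def radHi : Fin 4 → ℝ := ![2.0465, 0.12501, 0.7131, 0.5093]
/-- Upper bound for the potentials. -/
noncomputable def potHi : Fin 4 → ℝ := ![-0.21, 1.5206, 0.7741, 1.0597]

lemma rad_bounds (j : Fin 4) {a : ℝ} (ha : a ∈ I) : radLo j ≤ rad j a ∧ rad j a ≤ radHi j := by
  fin_cases j
  · exact ⟨rho_lo ha, rho_hi ha⟩
  · exact ⟨pp_lo ha, pp_hi ha⟩
  · exact ⟨qq_lo ha, qq_hi ha⟩
  · exact ⟨rR_lo ha, rR_hi ha⟩

lemma radLo_pos (j : Fin 4) : 0 < radLo j := by
  fin_cases j <;> simp [radLo] <;> norm_num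

lemma rad_pos (j : Fin 4) {a : ℝ} (ha : a ∈ I) : 0 < rad j a :=
  (radLo_pos j).trans_le (rad_bounds j ha).1

lemma pot_hi (j : Fin 4) {a : ℝ} (ha : a ∈ I) : pot j a ≤ potHi j := by
  fin_cases j
  · exact U1_hi ha
  · exact Up_hi ha
  · exact Uq_hi ha
  · exact UR_hi ha

lemma pot_lo (j : Fin 4) {a : ℝ} (ha : a ∈ I) : -(1 : ℝ) ≤ pot j a := by
  fin_cases j
  · have := U1_lo ha
    show -(1 : ℝ) ≤ U1 a
    norm_num at this ⊢
    linarith
  · have := Up_lo ha
    show -(1 : ℝ) ≤ Up a
    norm_num at this ⊢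
    linarith
  · have := Uq_lo ha
    show -(1 : ℝ) ≤ Uq a
    norm_num at this ⊢
    linarith
  · have := UR_lo ha
    show -(1 : ℝ) ≤ UR a
    linarith

lemma rad_injOn (j : Fin 4) : InjOn (rad j) I := by
  fin_cases j
  · exact rho_strictMono.injOn
  · exact pp_strictMono.injOn
  · exact qq_strictAnti.injOn
  · exact rR_strictAnti.injOn

lemma radHi_lt_radLo {j k : Fin 4} (h : j ≠ k) : radHi j < radLo k ∨ radHi k < radLo j := by
  fin_cases j <;> fin_cases k <;> first
    | exact absurd rfl h
    | (left; simp [radHi, radLo]; norm_num; done)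
    | (right; simp [radHi, radLo]; norm_num; done)

lemma rad_eq_rad {j k : Fin 4} {a b : ℝ} (ha : a ∈ I) (hb : b ∈ I) (h : rad j a = rad k b) :
    j = k ∧ a = b := by
  have hjk : j = k := by
    by_contra hne
    rcases radHi_lt_radLo hne with h1 | h1
    · have := (rad_bounds j ha).2
      have := (rad_bounds k hb).1
      linarith
    · have := (rad_bounds k hb).2
      have := (rad_bounds j ha).1
      linarith
  subst hjk
  exact ⟨rfl, rad_injOn j ha hb h⟩

lemma hasDerivAt_continuousOn {f f' : ℝ → ℝ} (h : ∀ a ∈ I, HasDerivAt f (f' a) a) :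
    ContinuousOn f I := fun a ha => (h a ha).continuousAt.continuousWithinAt

lemma continuousOn_rho : ContinuousOn rho I := hasDerivAt_continuousOn (fun _ ha => hasDerivAt_rho ha)
lemma continuousOn_pp : ContinuousOn pp I := hasDerivAt_continuousOn (fun a _ => hasDerivAt_pp a)
lemma continuousOn_qq : ContinuousOn qq I := hasDerivAt_continuousOn (fun _ ha => hasDerivAt_qq ha)
lemma continuousOn_rR : ContinuousOn rR I := hasDerivAt_continuousOn (fun _ ha => hasDerivAt_rR ha)
lemma continuousOn_V1 : ContinuousOn V1 I := hasDerivAt_continuousOn (fun _ ha => hasDerivAt_V1 ha)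
lemma continuousOn_V2 : ContinuousOn V2 I := hasDerivAt_continuousOn (fun _ ha => hasDerivAt_V2 ha)
lemma continuousOn_V3 : ContinuousOn V3 I := hasDerivAt_continuousOn (fun _ ha => hasDerivAt_V3 ha)
lemma continuousOn_U1 : ContinuousOn U1 I := hasDerivAt_continuousOn (fun _ ha => hasDerivAt_U1 ha)
lemma continuousOn_UR : ContinuousOn UR I := hasDerivAt_continuousOn (fun _ ha => hasDerivAt_UR ha)
lemma continuousOn_Up : ContinuousOn Up I := by
  unfold Up
  exact (continuousOn_const.add (continuousOn_dX.sub continuousOn_V1)).add continuousOn_V3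
lemma continuousOn_Uq : ContinuousOn Uq I := by
  unfold Uq
  exact ((continuousOn_const.sub continuousOn_const).add (continuousOn_dY.sub continuousOn_V2)).add
    (continuousOn_dZ.sub continuousOn_V3)

lemma continuousOn_rad (j : Fin 4) : ContinuousOn (rad j) I := by
  fin_cases j
  · exact continuousOn_rho
  · exact continuousOn_pp
  · exact continuousOn_qq
  · exact continuousOn_rR

lemma continuousOn_pot (j : Fin 4) : ContinuousOn (pot j) I := by
  fin_cases j
  · exact continuousOn_U1
  · exact continuousOn_Up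
  · exact continuousOn_Uq
  · exact continuousOn_UR

lemma measurableSet_I : MeasurableSet I := measurableSet_Icc

/-- Extension across the four shells: any family of functions continuous on `I` is the pullback
along the radii of one measurable function of the radius. -/
lemma exists_measurable_of_shells (g : Fin 4 → ℝ → ℝ) (hg : ∀ j, ContinuousOn (g j) I) :
    ∃ v : ℝ → ℝ, Measurable v ∧ ∀ j, ∀ a ∈ I, v (rad j a) = g j a := by
  haveI : StandardBorelSpace ↥I := measurableSet_I.standardBorel
  let f : ↥I × Fin 4 → ℝ := fun p => rad p.2 p.1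
  let G : ↥I × Fin 4 → ℝ := fun p => g p.2 p.1
  have hf : Measurable f := by
    apply measurable_from_prod_countable_left
    intro j
    exact ((continuousOn_rad j).domRestrict).measurable
  have hG : Measurable G := by
    apply measurable_from_prod_countable_left
    intro j
    exact ((hg j).domRestrict).measurable
  have hinj : Function.Injective f := by
    rintro ⟨⟨a, ha⟩, j⟩ ⟨⟨b, hb⟩, k⟩ h
    obtain ⟨h1, h2⟩ := rad_eq_rad ha hb h
    subst h1
    subst h2
    rfl
  have hemb : MeasurableEmbedding f := hf.measurableEmbedding hinj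
  obtain ⟨v, hv, hvG⟩ := hemb.exists_measurable_extend hG (fun _ => ⟨0⟩)
  refine ⟨v, hv, fun j a ha => ?_⟩
  exact congrFun hvG (⟨a, ha⟩, j)

/-- The radial potential. -/
noncomputable def v : ℝ → ℝ := Classical.choose (exists_measurable_of_shells pot continuousOn_pot)

lemma measurable_v : Measurable v :=
  (Classical.choose_spec (exists_measurable_of_shells pot continuousOn_pot)).1

lemma v_rad (j : Fin 4) {a : ℝ} (ha : a ∈ I) : v (rad j a) = pot j a :=
  (Classical.choose_spec (exists_measurable_of_shells pot continuousOn_pot)).2 j a ha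

/-- The Kantorovich potential on `E3`. -/
noncomputable def u (x : E3) : ℝ := v ‖x‖

lemma measurable_u : Measurable u := measurable_v.comp measurable_norm

lemma exists_kappa : ∃ κ : ℝ → ℝ, Measurable κ ∧ ∀ a ∈ I, κ (pp a) = rho a / pp a := by
  obtain ⟨κ, h1, h2⟩ := exists_measurable_of_shells
    (fun j a => (![0, rho a / pp a, 0, 0] : Fin 4 → ℝ) j) (by
      intro j
      fin_cases j
      · exact continuousOn_const
      · exact continuousOn_rho.div continuousOn_pp (fun a ha => (pp_pos ha).ne')
      · exact continuousOn_const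
      · exact continuousOn_const)
  exact ⟨κ, h1, fun a ha => h2 1 a ha⟩

/-- Radial scaling factor from the inner shell back to the thick shell. -/
noncomputable def κ : ℝ → ℝ := Classical.choose exists_kappa

lemma measurable_κ : Measurable κ := (Classical.choose_spec exists_kappa).1

lemma κ_pp {a : ℝ} (ha : a ∈ I) : κ (pp a) = rho a / pp a :=
  (Classical.choose_spec exists_kappa).2 a ha

/-- The map from the inner shell back to the thick shell. -/
noncomputable def ψ (y : E3) : E3 := κ ‖y‖ • y

lemma measurable_ψ : Measurable ψ :=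
  (measurable_κ.comp measurable_norm).smul measurable_id

/-- The shells. -/
def Sh (j : Fin 4) : Set E3 := {x | ∃ a ∈ I, ‖x‖ = rad j a}

/-- The union of the shells. -/
def SS : Set E3 := {x | ∃ j, x ∈ Sh j}

lemma isCompact_I : IsCompact I := isCompact_Icc

lemma isClosed_Sh (j : Fin 4) : IsClosed (Sh j) := by
  have h : IsClosed (rad j '' I) := (isCompact_I.image_of_continuousOn (continuousOn_rad j)).isClosed
  have h2 : Sh j = (fun x : E3 => ‖x‖) ⁻¹' (rad j '' I) := by
    ext x
    constructor
    · rintro ⟨a, ha, hx⟩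
      exact ⟨a, ha, hx.symm⟩
    · rintro ⟨a, ha, hx⟩
      exact ⟨a, ha, hx.symm⟩
  rw [h2]
  exact h.preimage continuous_norm

lemma measurableSet_Sh (j : Fin 4) : MeasurableSet (Sh j) := (isClosed_Sh j).measurableSet

lemma measurableSet_SS : MeasurableSet SS := by
  have : SS = ⋃ j, Sh j := by
    ext x
    simp [SS]
  rw [this]
  exact MeasurableSet.iUnion measurableSet_Sh

lemma Sh_disjoint {j k : Fin 4} {x : E3} (h1 : x ∈ Sh j) (h2 : x ∈ Sh k) : j = k := by
  obtain ⟨a, ha, hx⟩ := h1
  obtain ⟨b, hb, hx'⟩ := h2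
  exact (rad_eq_rad ha hb (hx.symm.trans hx')).1

lemma u_of_mem {j : Fin 4} {x : E3} {a : ℝ} (ha : a ∈ I) (h : ‖x‖ = rad j a) : u x = pot j a := by
  unfold u
  rw [h, v_rad j ha]

lemma u_hi {j : Fin 4} {x : E3} (h : x ∈ Sh j) : u x ≤ potHi j := by
  obtain ⟨a, ha, hx⟩ := h
  rw [u_of_mem ha hx]
  exact pot_hi j ha

lemma u_lo {x : E3} (h : x ∈ SS) : -(1 : ℝ) ≤ u x := by
  obtain ⟨j, a, ha, hx⟩ := h
  rw [u_of_mem ha hx]
  exact pot_lo j ha

lemma norm_hi {j : Fin 4} {x : E3} (h : x ∈ Sh j) : ‖x‖ ≤ radHi j := by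
  obtain ⟨a, ha, hx⟩ := h
  rw [hx]
  exact (rad_bounds j ha).2

end Vale.Agent.Lib.P121
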