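import Vale.Agent.Lib.P121.Defs

open MeasureTheory
open scoped ENNReal RealInnerProductSpace

namespace Vale.Agent.Lib.P121

lemma one_div_ge_tangent {y d : ℝ} (hy : 0 < y) (hd : 0 < d) :
    3 / (2 * d) - y ^ 2 / (2 * d ^ 3) ≤ 1 / y := by
  have key : 1 / y - (3 / (2 * d) - y ^ 2 / (2 * d ^ 3))
      = (y - d) ^ 2 * (y + 2 * d) / (2 * d ^ 3 * y) := by
    field_simp
    ring
  have h2 : 0 ≤ (y - d) ^ 2 * (y + 2 * d) / (2 * d ^ 3 * y) := by positivity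
  linarith

lemma edist_inv_ge (x y : E3) {d : ℝ} (hd : 0 < d) :
    ENNReal.ofReal (3 / (2 * d) - ‖x - y‖ ^ 2 / (2 * d ^ 3)) ≤ (edist x y)⁻¹ := by
  by_cases hxy : x = y
  · subst hxy
    simp
  · have hpos : 0 < ‖x - y‖ := norm_pos_iff.mpr (sub_ne_zero.mpr hxy)
    have he : edist x y = ENNReal.ofReal ‖x - y‖ := by
      rw [edist_dist, dist_eq_norm]
    rw [he, ← ENNReal.ofReal_inv_of_pos hpos, ← one_div]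
    exact ENNReal.ofReal_le_ofReal (one_div_ge_tangent hpos hd)

/-- The sum of the three tangent lower bounds. -/
noncomputable def tangentSum (d1 d2 d3 : ℝ) (x y z : E3) : ℝ :=
  (3 / (2 * d1) - ‖x - y‖ ^ 2 / (2 * d1 ^ 3)) + (3 / (2 * d2) - ‖x - z‖ ^ 2 / (2 * d2 ^ 3))
    + (3 / (2 * d3) - ‖y - z‖ ^ 2 / (2 * d3 ^ 3))

lemma ofReal_tangentSum_le {d1 d2 d3 : ℝ} (h1 : 0 < d1) (h2 : 0 < d2) (h3 : 0 < d3)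
    (x y z : E3) : ENNReal.ofReal (tangentSum d1 d2 d3 x y z) ≤ coulomb x y z := by
  unfold tangentSum coulomb
  refine (ENNReal.ofReal_add_le).trans ?_
  refine add_le_add ((ENNReal.ofReal_add_le).trans ?_) (edist_inv_ge y z h3)
  exact add_le_add (edist_inv_ge x y h1) (edist_inv_ge x z h2)

/-- The rank-one lower bound, a function of the squared norms `A, B, C`. -/
noncomputable def rankOne (d1 d2 d3 A B C : ℝ) : ℝ :=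
  3 / 2 * (1 / d1 + 1 / d2 + 1 / d3)
    - 1 / 2 * ((1 / d1 ^ 3 + 1 / d2 ^ 3 + (1 / d1 ^ 3) * (1 / d2 ^ 3) / (1 / d3 ^ 3)) * A
      + (1 / d1 ^ 3 + 1 / d3 ^ 3 + (1 / d1 ^ 3) * (1 / d3 ^ 3) / (1 / d2 ^ 3)) * B
      + (1 / d2 ^ 3 + 1 / d3 ^ 3 + (1 / d2 ^ 3) * (1 / d3 ^ 3) / (1 / d1 ^ 3)) * C)

lemma rankOne_alg {w1 w2 w3 A B C P Q R : ℝ} (h1 : 0 < w1) (h2 : 0 < w2) (h3 : 0 < w3)
    (hV : 0 ≤ (w1 * w2) ^ 2 * A + (w1 * w3) ^ 2 * B + (w2 * w3) ^ 2 * C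
      + 2 * (w1 * w2) * (w1 * w3) * P + 2 * (w1 * w2) * (w2 * w3) * Q
      + 2 * (w1 * w3) * (w2 * w3) * R) :
    w1 * (A - 2 * P + B) + w2 * (A - 2 * Q + C) + w3 * (B - 2 * R + C)
      ≤ (w1 + w2 + w1 * w2 / w3) * A + (w1 + w3 + w1 * w3 / w2) * B
        + (w2 + w3 + w2 * w3 / w1) * C := by
  have key : (w1 + w2 + w1 * w2 / w3) * A + (w1 + w3 + w1 * w3 / w2) * B
        + (w2 + w3 + w2 * w3 / w1) * C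
      - (w1 * (A - 2 * P + B) + w2 * (A - 2 * Q + C) + w3 * (B - 2 * R + C))
      = ((w1 * w2) ^ 2 * A + (w1 * w3) ^ 2 * B + (w2 * w3) ^ 2 * C
      + 2 * (w1 * w2) * (w1 * w3) * P + 2 * (w1 * w2) * (w2 * w3) * Q
      + 2 * (w1 * w3) * (w2 * w3) * R) / (w1 * w2 * w3) := by
    field_simp
    ring
  have h4 : 0 ≤ ((w1 * w2) ^ 2 * A + (w1 * w3) ^ 2 * B + (w2 * w3) ^ 2 * C
      + 2 * (w1 * w2) * (w1 * w3) * P + 2 * (w1 * w2) * (w2 * w3) * Q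
      + 2 * (w1 * w3) * (w2 * w3) * R) / (w1 * w2 * w3) := by positivity
  linarith

lemma norm_sq_comb (a b c : ℝ) (x y z : E3) :
    ‖a • x + b • y + c • z‖ ^ 2 = a ^ 2 * ‖x‖ ^ 2 + b ^ 2 * ‖y‖ ^ 2 + c ^ 2 * ‖z‖ ^ 2
      + 2 * a * b * ⟪x, y⟫ + 2 * a * c * ⟪x, z⟫ + 2 * b * c * ⟪y, z⟫ := by
  rw [norm_add_sq_real, norm_add_sq_real, inner_add_left]
  simp only [inner_smul_left, inner_smul_right, norm_smul, Real.norm_eq_abs, mul_pow, sq_abs,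
    conj_trivial]
  ring

lemma rankOne_le_tangentSum {d1 d2 d3 : ℝ} (h1 : 0 < d1) (h2 : 0 < d2) (h3 : 0 < d3)
    (x y z : E3) :
    rankOne d1 d2 d3 (‖x‖ ^ 2) (‖y‖ ^ 2) (‖z‖ ^ 2) ≤ tangentSum d1 d2 d3 x y z := by
  have hw1 : 0 < 1 / d1 ^ 3 := by positivity
  have hw2 : 0 < 1 / d2 ^ 3 := by positivity
  have hw3 : 0 < 1 / d3 ^ 3 := by positivity
  have hV := sq_nonneg ‖((1 / d1 ^ 3) * (1 / d2 ^ 3)) • x + ((1 / d1 ^ 3) * (1 / d3 ^ 3)) • y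
    + ((1 / d2 ^ 3) * (1 / d3 ^ 3)) • z‖
  rw [norm_sq_comb] at hV
  have key := rankOne_alg (P := ⟪x, y⟫) (Q := ⟪x, z⟫) (R := ⟪y, z⟫)
    (A := ‖x‖ ^ 2) (B := ‖y‖ ^ 2) (C := ‖z‖ ^ 2) hw1 hw2 hw3 hV
  have e1 : ‖x - y‖ ^ 2 = ‖x‖ ^ 2 - 2 * ⟪x, y⟫ + ‖y‖ ^ 2 := norm_sub_sq_real x y
  have e2 : ‖x - z‖ ^ 2 = ‖x‖ ^ 2 - 2 * ⟪x, z⟫ + ‖z‖ ^ 2 := norm_sub_sq_real x z
  have e3 : ‖y - z‖ ^ 2 = ‖y‖ ^ 2 - 2 * ⟪y, z⟫ + ‖z‖ ^ 2 := norm_sub_sq_real y z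
  unfold rankOne tangentSum
  rw [e1, e2, e3]
  have t1 : 3 / (2 * d1) - (‖x‖ ^ 2 - 2 * ⟪x, y⟫ + ‖y‖ ^ 2) / (2 * d1 ^ 3)
      = 3 / 2 * (1 / d1) - 1 / 2 * ((1 / d1 ^ 3) * (‖x‖ ^ 2 - 2 * ⟪x, y⟫ + ‖y‖ ^ 2)) := by
    field_simp
  have t2 : 3 / (2 * d2) - (‖x‖ ^ 2 - 2 * ⟪x, z⟫ + ‖z‖ ^ 2) / (2 * d2 ^ 3)
      = 3 / 2 * (1 / d2) - 1 / 2 * ((1 / d2 ^ 3) * (‖x‖ ^ 2 - 2 * ⟪x, z⟫ + ‖z‖ ^ 2)) := by
    field_simp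
  have t3 : 3 / (2 * d3) - (‖y‖ ^ 2 - 2 * ⟪y, z⟫ + ‖z‖ ^ 2) / (2 * d3 ^ 3)
      = 3 / 2 * (1 / d3) - 1 / 2 * ((1 / d3 ^ 3) * (‖y‖ ^ 2 - 2 * ⟪y, z⟫ + ‖z‖ ^ 2)) := by
    field_simp
  rw [t1, t2, t3]
  linarith

/-- Weighted Cauchy: `‖u + v‖² ≤ 22 (‖u‖²/15 + ‖v‖²/7)`. -/
lemma norm_add_sq_le_weighted (u v : E3) :
    ‖u + v‖ ^ 2 ≤ 22 * (1 / 15 * ‖u‖ ^ 2 + 1 / 7 * ‖v‖ ^ 2) := by
  have h := sq_nonneg ‖(7 : ℝ) • u - (15 : ℝ) • v‖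
  rw [norm_sub_sq_real, norm_smul, norm_smul, inner_smul_left, inner_smul_right] at h
  simp only [Real.norm_eq_abs, conj_trivial, mul_pow, sq_abs] at h
  rw [norm_add_sq_real]
  norm_num at h
  nlinarith [h]

/-- Collinear tangent estimate. -/
lemma tangentSum_collinear {r1 r2 r3 : ℝ} {x y z : E3} (h1 : 0 < r1) (h2 : 0 < r2) (h3 : 0 < r3)
    (h12 : r2 < r1) (hx : ‖x‖ = r1) (hy : ‖y‖ = r2) (hz : ‖z‖ = r3)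
    (hB : r1 * r2 / (r1 - r2) ^ 3 ≤ 1 / 27)
    (hA1 : 1 / 15 ≤ r1 * r3 / (r1 + r3) ^ 3)
    (hA2 : 1 / 7 ≤ r2 * r3 / (r2 + r3) ^ 3) :
    1 / (r1 - r2) + 1 / (r1 + r3) + 1 / (r2 + r3)
        + 5 / 1188 * ‖(1 / r1) • x - (1 / r2) • y‖ ^ 2
      ≤ tangentSum (r1 - r2) (r1 + r3) (r2 + r3) x y z := by
  have hD1 : 0 < r1 - r2 := sub_pos.mpr h12
  have hD2 : 0 < r1 + r3 := by positivity
  have hD3 : 0 < r2 + r3 := by positivity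
  set e1 : E3 := (1 / r1) • x with he1
  set e2 : E3 := (1 / r2) • y with he2
  set e3 : E3 := (-(1 / r3)) • z with he3
  -- the three squared distances between unit vectors
  have n1 : ‖e1‖ ^ 2 = 1 := by
    rw [he1, norm_smul, hx, Real.norm_eq_abs, abs_of_pos (by positivity)]
    field_simp
  have n2 : ‖e2‖ ^ 2 = 1 := by
    rw [he2, norm_smul, hy, Real.norm_eq_abs, abs_of_pos (by positivity)]
    field_simp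
  have n3 : ‖e3‖ ^ 2 = 1 := by
    rw [he3, norm_smul, hz, norm_neg, Real.norm_eq_abs, abs_of_pos (by positivity)]
    field_simp
  have ip12 : ⟪x, y⟫ = r1 * r2 * ⟪e1, e2⟫ := by
    rw [he1, he2, inner_smul_left, inner_smul_right]
    simp only [conj_trivial]
    field_simp
  have ip13 : ⟪x, z⟫ = - (r1 * r3) * ⟪e1, e3⟫ := by
    rw [he1, he3, inner_smul_left, inner_smul_right]
    simp only [conj_trivial]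
    field_simp
  have ip23 : ⟪y, z⟫ = - (r2 * r3) * ⟪e2, e3⟫ := by
    rw [he2, he3, inner_smul_left, inner_smul_right]
    simp only [conj_trivial]
    field_simp
  have d12 : ‖x - y‖ ^ 2 = (r1 - r2) ^ 2 + r1 * r2 * ‖e1 - e2‖ ^ 2 := by
    rw [norm_sub_sq_real x y, norm_sub_sq_real e1 e2, n1, n2, ip12, hx, hy]
    ring
  have d13 : ‖x - z‖ ^ 2 = (r1 + r3) ^ 2 - r1 * r3 * ‖e1 - e3‖ ^ 2 := by
    rw [norm_sub_sq_real x z, norm_sub_sq_real e1 e3, n1, n3, ip13, hx, hz]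
    ring
  have d23 : ‖y - z‖ ^ 2 = (r2 + r3) ^ 2 - r2 * r3 * ‖e2 - e3‖ ^ 2 := by
    rw [norm_sub_sq_real y z, norm_sub_sq_real e2 e3, n2, n3, ip23, hy, hz]
    ring
  have tcalc : tangentSum (r1 - r2) (r1 + r3) (r2 + r3) x y z
      = 1 / (r1 - r2) + 1 / (r1 + r3) + 1 / (r2 + r3)
        - 1 / 2 * (r1 * r2 / (r1 - r2) ^ 3) * ‖e1 - e2‖ ^ 2
        + 1 / 2 * (r1 * r3 / (r1 + r3) ^ 3) * ‖e1 - e3‖ ^ 2
        + 1 / 2 * (r2 * r3 / (r2 + r3) ^ 3) * ‖e2 - e3‖ ^ 2 := by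
    unfold tangentSum
    rw [d12, d13, d23]
    field_simp
    ring
  rw [tcalc]
  have hu : ‖e1 - e2‖ ^ 2 ≤ 22 * (1 / 15 * ‖e1 - e3‖ ^ 2 + 1 / 7 * ‖e3 - e2‖ ^ 2) := by
    have := norm_add_sq_le_weighted (e1 - e3) (e3 - e2)
    simpa using this
  have hsym : ‖e3 - e2‖ = ‖e2 - e3‖ := norm_sub_rev _ _
  rw [hsym] at hu
  have nn1 : 0 ≤ ‖e1 - e2‖ ^ 2 := by positivity
  have nn2 : 0 ≤ ‖e1 - e3‖ ^ 2 := by positivity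
  have nn3 : 0 ≤ ‖e2 - e3‖ ^ 2 := by positivity
  have s1 : r1 * r2 / (r1 - r2) ^ 3 * ‖e1 - e2‖ ^ 2 ≤ 1 / 27 * ‖e1 - e2‖ ^ 2 :=
    mul_le_mul_of_nonneg_right hB nn1
  have s2 : 1 / 15 * ‖e1 - e3‖ ^ 2 ≤ r1 * r3 / (r1 + r3) ^ 3 * ‖e1 - e3‖ ^ 2 :=
    mul_le_mul_of_nonneg_right hA1 nn2
  have s3 : 1 / 7 * ‖e2 - e3‖ ^ 2 ≤ r2 * r3 / (r2 + r3) ^ 3 * ‖e2 - e3‖ ^ 2 :=
    mul_le_mul_of_nonneg_right hA2 nn3
  nlinarith [s1, s2, s3, hu, nn1, nn2, nn3]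

end Vale.Agent.Lib.P121
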