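import Vale.Agent.Lib.P121.Plan

open MeasureTheory Set
open scoped ENNReal

namespace Vale.Agent.Lib.P121

/-- One plan carried by three random points. -/
noncomputable def plan (A B C : ℝ × G → E3) : Measure (E3 × E3 × E3) :=
  QQ.map (fun w => (A w, B w, C w))

lemma mS1 : Measurable (fun w : E3 × E3 × E3 => w.2.1) := measurable_fst.comp measurable_snd
lemma mS2 : Measurable (fun w : E3 × E3 × E3 => w.2.2) := measurable_snd.comp measurable_snd

section plan_maps

variable {A B C : ℝ × G → E3}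

lemma meas_triple (hA : Measurable A) (hB : Measurable B) (hC : Measurable C) :
    Measurable (fun w => (A w, B w, C w)) := hA.prodMk (hB.prodMk hC)

lemma plan_map1 (hA : Measurable A) (hB : Measurable B) (hC : Measurable C) :
    (plan A B C).map (fun w => w.1) = QQ.map A := by
  unfold plan
  rw [Measure.map_map measurable_fst (meas_triple hA hB hC)]
  rfl

lemma plan_map2 (hA : Measurable A) (hB : Measurable B) (hC : Measurable C) :
    (plan A B C).map (fun w => w.2.1) = QQ.map B := by
  unfold plan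
  rw [Measure.map_map mS1 (meas_triple hA hB hC)]
  rfl

lemma plan_map3 (hA : Measurable A) (hB : Measurable B) (hC : Measurable C) :
    (plan A B C).map (fun w => w.2.2) = QQ.map C := by
  unfold plan
  rw [Measure.map_map mS2 (meas_triple hA hB hC)]
  rfl

end plan_maps

/-- Names for the five random points. -/
noncomputable def X0 : ℝ × G → E3 := rnd y0
noncomputable def Xp : ℝ × G → E3 := rnd yp
noncomputable def Xq : ℝ × G → E3 := rnd yq
noncomputable def Xa : ℝ × G → E3 := rnd ya
noncomputable def Xb : ℝ × G → E3 := rnd yb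

lemma mX0 : Measurable X0 := measurable_rnd measurable_y0
lemma mXp : Measurable Xp := measurable_rnd measurable_yp
lemma mXq : Measurable Xq := measurable_rnd measurable_yq
lemma mXa : Measurable Xa := measurable_rnd measurable_ya
lemma mXb : Measurable Xb := measurable_rnd measurable_yb

/-- The optimal plan: the symmetrization of the two contact configurations over the cyclic
orderings. -/
noncomputable def piS : Measure (E3 × E3 × E3) :=
  (1 / 6 : ℝ≥0∞) • (plan X0 Xp Xq + plan Xp Xq X0 + plan Xq X0 Xp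
    + plan X0 Xa Xb + plan Xa Xb X0 + plan Xb X0 Xa)

lemma map_combo {f : E3 × E3 × E3 → E3} (hf : Measurable f) (c : ℝ≥0∞)
    (m1 m2 m3 m4 m5 m6 : Measure (E3 × E3 × E3)) :
    (c • (m1 + m2 + m3 + m4 + m5 + m6)).map f
      = c • (m1.map f + m2.map f + m3.map f + m4.map f + m5.map f + m6.map f) := by
  rw [Measure.map_smul, Measure.map_add _ _ hf, Measure.map_add _ _ hf, Measure.map_add _ _ hf,
    Measure.map_add _ _ hf, Measure.map_add _ _ hf]

lemma piS_isCoupling : IsCoupling muS piS := by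
  refine ⟨?_, ?_, ?_⟩
  · unfold piS
    rw [map_combo measurable_fst]
    rw [plan_map1 mX0 mXp mXq, plan_map1 mXp mXq mX0, plan_map1 mXq mX0 mXp,
      plan_map1 mX0 mXa mXb, plan_map1 mXa mXb mX0, plan_map1 mXb mX0 mXa]
    unfold muS L0 Lp Lq La Lb X0 Xp Xq Xa Xb
    congr 1
    abel
  · unfold piS
    rw [map_combo mS1]
    rw [plan_map2 mX0 mXp mXq, plan_map2 mXp mXq mX0, plan_map2 mXq mX0 mXp,
      plan_map2 mX0 mXa mXb, plan_map2 mXa mXb mX0, plan_map2 mXb mX0 mXa]
    unfold muS L0 Lp Lq La Lb X0 Xp Xq Xa Xb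
    congr 1
    abel
  · unfold piS
    rw [map_combo mS2]
    rw [plan_map3 mX0 mXp mXq, plan_map3 mXp mXq mX0, plan_map3 mXq mX0 mXp,
      plan_map3 mX0 mXa mXb, plan_map3 mXa mXb mX0, plan_map3 mXb mX0 mXa]
    unfold muS L0 Lp Lq La Lb X0 Xp Xq Xa Xb
    congr 1
    abel

/-- The shifted potential with values in the extended nonnegative reals. -/
noncomputable def fU (x : E3) : ℝ≥0∞ := ENNReal.ofReal (u x + 1)

lemma measurable_fU : Measurable fU :=
  (measurable_u.add_const 1).ennreal_ofReal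

/-- Measurability of the cost. -/
lemma measurable_costS : Measurable (fun w : E3 × E3 × E3 => coulomb w.1 w.2.1 w.2.2) := by
  unfold coulomb
  have h1 : Measurable (fun w : E3 × E3 × E3 => edist w.1 w.2.1) :=
    measurable_fst.edist (measurable_fst.comp measurable_snd)
  have h2 : Measurable (fun w : E3 × E3 × E3 => edist w.1 w.2.2) :=
    measurable_fst.edist (measurable_snd.comp measurable_snd)
  have h3 : Measurable (fun w : E3 × E3 × E3 => edist w.2.1 w.2.2) :=
    (measurable_fst.comp measurable_snd).edist (measurable_snd.comp measurable_snd)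
  have hinv : Measurable (fun t : ℝ≥0∞ => t⁻¹) := measurable_inv
  exact ((hinv.comp h1).add (hinv.comp h2)).add (hinv.comp h3)

/-- Integrated form of contact for one plan. -/
lemma plan_integral {A B C : ℝ × G → E3} (hA : Measurable A) (hB : Measurable B)
    (hC : Measurable C) (h : ∀ᵐ w ∂QQ, Contact (A w) (B w) (C w)) :
    ∫⁻ p, (fU p.1 + fU p.2.1 + fU p.2.2) ∂(plan A B C)
      = ∫⁻ p, (coulomb p.1 p.2.1 p.2.2 + ENNReal.ofReal 3) ∂(plan A B C) := by
  unfold plan
  have hF : Measurable (fun p : E3 × E3 × E3 => fU p.1 + fU p.2.1 + fU p.2.2) :=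
    ((measurable_fU.comp measurable_fst).add (measurable_fU.comp
      (measurable_fst.comp measurable_snd))).add (measurable_fU.comp
      (measurable_snd.comp measurable_snd))
  have hG : Measurable (fun p : E3 × E3 × E3 => coulomb p.1 p.2.1 p.2.2 + ENNReal.ofReal 3) :=
    measurable_costS.add_const _
  rw [lintegral_map hF (meas_triple hA hB hC), lintegral_map hG (meas_triple hA hB hC)]
  exact lintegral_congr_ae h

lemma lintegral_combo (g : E3 × E3 × E3 → ℝ≥0∞) (c : ℝ≥0∞)
    (m1 m2 m3 m4 m5 m6 : Measure (E3 × E3 × E3)) :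
    ∫⁻ p, g p ∂(c • (m1 + m2 + m3 + m4 + m5 + m6))
      = c * (∫⁻ p, g p ∂m1 + ∫⁻ p, g p ∂m2 + ∫⁻ p, g p ∂m3 + ∫⁻ p, g p ∂m4 + ∫⁻ p, g p ∂m5
          + ∫⁻ p, g p ∂m6) := by
  rw [lintegral_smul_measure, lintegral_add_measure, lintegral_add_measure, lintegral_add_measure,
    lintegral_add_measure, lintegral_add_measure]
  rfl

lemma contact_rnd_line {w : ℝ × G} (hw : w.1 ∈ I) : Contact (X0 w) (Xp w) (Xq w) :=
  (contact_line hw).act w.2⁻¹

lemma contact_rnd_iso {w : ℝ × G} (hw : w.1 ∈ I) : Contact (X0 w) (Xa w) (Xb w) :=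
  (contact_iso hw).act w.2⁻¹

lemma piS_integral :
    ∫⁻ p, (fU p.1 + fU p.2.1 + fU p.2.2) ∂piS
      = ∫⁻ p, (coulomb p.1 p.2.1 p.2.2 + ENNReal.ofReal 3) ∂piS := by
  unfold piS
  rw [lintegral_combo, lintegral_combo]
  rw [plan_integral mX0 mXp mXq (by
        filter_upwards [ae_QQ_mem] with w hw using contact_rnd_line hw),
    plan_integral mXp mXq mX0 (by
        filter_upwards [ae_QQ_mem] with w hw using (contact_rnd_line hw).rot1),
    plan_integral mXq mX0 mXp (by
        filter_upwards [ae_QQ_mem] with w hw using (contact_rnd_line hw).rot1.rot1),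
    plan_integral mX0 mXa mXb (by
        filter_upwards [ae_QQ_mem] with w hw using contact_rnd_iso hw),
    plan_integral mXa mXb mX0 (by
        filter_upwards [ae_QQ_mem] with w hw using (contact_rnd_iso hw).rot1),
    plan_integral mXb mX0 mXa (by
        filter_upwards [ae_QQ_mem] with w hw using (contact_rnd_iso hw).rot1.rot1)]

/-- The dual value. -/
noncomputable def Lval : ℝ≥0∞ := ∫⁻ x, fU x ∂muS + ∫⁻ x, fU x ∂muS + ∫⁻ x, fU x ∂muS

lemma coupling_integral {π : Measure (E3 × E3 × E3)} (h : IsCoupling muS π) :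
    ∫⁻ p, (fU p.1 + fU p.2.1 + fU p.2.2) ∂π = Lval := by
  have m1 : Measurable (fun p : E3 × E3 × E3 => fU p.1) := measurable_fU.comp measurable_fst
  have m2 : Measurable (fun p : E3 × E3 × E3 => fU p.2.1) :=
    measurable_fU.comp (measurable_fst.comp measurable_snd)
  have m3 : Measurable (fun p : E3 × E3 × E3 => fU p.2.2) :=
    measurable_fU.comp (measurable_snd.comp measurable_snd)
  have m12 : Measurable (fun p : E3 × E3 × E3 => fU p.1 + fU p.2.1) := m1.add m2
  rw [lintegral_add_left m12, lintegral_add_left m1]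
  have e1 : ∫⁻ p, fU p.1 ∂π = ∫⁻ x, fU x ∂muS := by
    conv_rhs => rw [← h.1]
    exact (lintegral_map measurable_fU measurable_fst).symm
  have e2 : ∫⁻ p, fU p.2.1 ∂π = ∫⁻ x, fU x ∂muS := by
    conv_rhs => rw [← h.2.1]
    exact (lintegral_map measurable_fU mS1).symm
  have e3 : ∫⁻ p, fU p.2.2 ∂π = ∫⁻ x, fU x ∂muS := by
    conv_rhs => rw [← h.2.2]
    exact (lintegral_map measurable_fU mS2).symm
  rw [e1, e2, e3]
  rfl

lemma coupling_prob {π : Measure (E3 × E3 × E3)} (h : IsCoupling muS π) : π univ = 1 := by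
  have := congrArg (fun m => m univ) h.1
  simp only [measure_univ] at this
  rw [Measure.map_apply measurable_fst MeasurableSet.univ, preimage_univ] at this
  exact this

lemma cost_add {π : Measure (E3 × E3 × E3)} (h : IsCoupling muS π) :
    ∫⁻ p, (coulomb p.1 p.2.1 p.2.2 + ENNReal.ofReal 3) ∂π
      = ∫⁻ p, coulomb p.1 p.2.1 p.2.2 ∂π + ENNReal.ofReal 3 := by
  rw [lintegral_add_right _ measurable_const, lintegral_const, coupling_prob h, mul_one]

lemma coupling_lower {π : Measure (E3 × E3 × E3)} (h : IsCoupling muS π) :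
    Lval ≤ ∫⁻ p, coulomb p.1 p.2.1 p.2.2 ∂π + ENNReal.ofReal 3 := by
  rw [← coupling_integral h, ← cost_add h]
  apply lintegral_mono_ae
  have a1 : ∀ᵐ p ∂π, p.1 ∈ SS :=
    ae_of_ae_map measurable_fst.aemeasurable (by rw [h.1]; exact muS_ae_SS)
  have a2 : ∀ᵐ p ∂π, p.2.1 ∈ SS :=
    ae_of_ae_map mS1.aemeasurable (by rw [h.2.1]; exact muS_ae_SS)
  have a3 : ∀ᵐ p ∂π, p.2.2 ∈ SS :=
    ae_of_ae_map mS2.aemeasurable (by rw [h.2.2]; exact muS_ae_SS)
  filter_upwards [a1, a2, a3] with p h1 h2 h3
  exact dual_le h1 h2 h3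

lemma piS_value : ∫⁻ p, coulomb p.1 p.2.1 p.2.2 ∂piS + ENNReal.ofReal 3 = Lval := by
  rw [← coupling_integral piS_isCoupling, ← cost_add piS_isCoupling, piS_integral]

lemma ofReal3_ne_top : ENNReal.ofReal 3 ≠ ∞ := ENNReal.ofReal_ne_top

/-- The Kantorovich value of the counterexample is attained by the explicit plan. -/
lemma kv_eq : kantorovichValue muS = ∫⁻ p, coulomb p.1 p.2.1 p.2.2 ∂piS := by
  unfold kantorovichValue
  apply le_antisymm
  · exact iInf₂_le piS piS_isCoupling
  · refine le_iInf₂ (fun π hπ => ?_)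
    have h1 := coupling_lower hπ
    rw [← piS_value] at h1
    exact (ENNReal.add_le_add_iff_right ofReal3_ne_top).mp h1

lemma kv_add : kantorovichValue muS + ENNReal.ofReal 3 = Lval := by
  rw [kv_eq, piS_value]

lemma potHi_le (j : Fin 4) : potHi j ≤ 2 := by
  fin_cases j <;> simp [potHi] <;> norm_num

lemma lintegral_fU_le : ∫⁻ x, fU x ∂muS ≤ ENNReal.ofReal 3 := by
  calc ∫⁻ x, fU x ∂muS ≤ ∫⁻ _, ENNReal.ofReal 3 ∂muS := by
        apply lintegral_mono_ae
        filter_upwards [muS_ae_SS] with x hx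
        obtain ⟨j, hj⟩ := hx
        have h1 := u_hi hj
        have h2 := potHi_le j
        exact ENNReal.ofReal_le_ofReal (by linarith)
    _ = ENNReal.ofReal 3 := by
        rw [lintegral_const, measure_univ, mul_one]

lemma Lval_lt_top : Lval < ∞ := by
  unfold Lval
  have h := lintegral_fU_le.trans_lt ENNReal.ofReal_lt_top
  exact ENNReal.add_lt_top.mpr ⟨ENNReal.add_lt_top.mpr ⟨h, h⟩, h⟩

lemma kv_lt_top : kantorovichValue muS < ∞ := by
  have h := Lval_lt_top
  rw [← kv_add] at h
  exact (ENNReal.add_lt_top.mp h).1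

end Vale.Agent.Lib.P121
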